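import Vale.Agent.Lib.P007.CompSpan

open Matrix Topology MeasureTheory Filter Set

namespace Vale.Agent.Lib.P007

open Polynomial

/-- Two-level Vandermonde independence. -/
lemma two_level_vanish {d e : ℕ} (y : Fin d → ℝ) (x : Fin d × Fin e → ℝ)
    (hy : Function.Injective y) (hx : ∀ i, Function.Injective fun k => x (i, k))
    (v : Fin d × Fin e → ℝ)
    (h : ∀ p', ∑ p, v p * (y p'.1 ^ (p.1 : ℕ) * x p' ^ (p.2 : ℕ)) = 0) : v = 0 := by
  have step1 : ∀ i' k, ∑ i : Fin d, y i' ^ (i : ℕ) * v (i, k) = 0 := by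
    intro i'
    have h1 := Matrix.eq_zero_of_forall_index_sum_pow_mul_eq_zero
      (f := fun k' => x (i', k')) (v := fun k => ∑ i : Fin d, y i' ^ (i : ℕ) * v (i, k)) (hx i') ?_
    · intro k
      exact congrFun h1 k
    · intro k'
      have h2 := h (i', k')
      rw [Fintype.sum_prod_type, Finset.sum_comm] at h2
      rw [← h2]
      refine Finset.sum_congr rfl fun k _ => ?_
      rw [Finset.mul_sum]
      refine Finset.sum_congr rfl fun i _ => ?_
      ring
  ext ⟨i, k⟩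
  have h3 := Matrix.eq_zero_of_forall_index_sum_pow_mul_eq_zero
    (f := y) (v := fun i => v (i, k)) hy (fun i' => step1 i' k)
  exact congrFun h3 i

/-- The matrix `(y_{i'}^i x_{i',k'}^k)`. -/
noncomputable def M1 {d e : ℕ} (y : Fin d → ℝ) (x : Fin d × Fin e → ℝ) :
    Matrix (Fin d × Fin e) (Fin d × Fin e) ℝ :=
  Matrix.of fun p p' => y p'.1 ^ (p.1 : ℕ) * x p' ^ (p.2 : ℕ)

lemma M1_det_ne {d e : ℕ} (y : Fin d → ℝ) (x : Fin d × Fin e → ℝ)
    (hy : Function.Injective y) (hx : ∀ i, Function.Injective fun k => x (i, k)) :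
    (M1 y x).det ≠ 0 := by
  classical
  intro h0
  obtain ⟨v, hv, hv0⟩ := Matrix.exists_vecMul_eq_zero_iff.mpr h0
  apply hv
  refine two_level_vanish y x hy hx v fun p' => ?_
  have := congrFun hv0 p'
  simpa [Matrix.vecMul, dotProduct, M1] using this

lemma prod_scal (m d e : ℕ) (he : e ≠ 0) :
    ∏ p : Fin d × Fin e, (scal m e p.2 : ℝ) = (m : ℝ) ^ (d * (e - 1)) := by
  obtain ⟨e', rfl⟩ := Nat.exists_eq_succ_of_ne_zero he
  rw [Fintype.prod_prod_type]
  simp only [Finset.prod_const, Finset.card_univ, Fintype.card_fin]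
  rw [Fin.prod_univ_succ]
  simp [scal, Fin.val_succ, pow_mul, mul_comm]
  rw [pow_right_comm]

/-- Scaled matrix. -/
noncomputable def Mm {d e : ℕ} (m : ℕ) (y : Fin d → ℝ) (x : Fin d × Fin e → ℝ) :
    Matrix (Fin d × Fin e) (Fin d × Fin e) ℝ :=
  Matrix.of fun p p' => (scal m e p.2 : ℝ) * M1 y x p p'

lemma Mm_det {d e : ℕ} (he : e ≠ 0) (m : ℕ) (y : Fin d → ℝ) (x : Fin d × Fin e → ℝ) :
    (Mm m y x).det = (m : ℝ) ^ (d * (e - 1)) * (M1 y x).det := by
  unfold Mm
  rw [Matrix.det_mul_column, prod_scal m d e he]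

/-- General packet nonemptiness. -/
lemma packetSet_nonempty_of_basis {K : Type*} [Field K] {n : ℕ} (hn : n ≠ 0)
    (σ : Fin n → K →+* ℝ) (O : Subring K) (b : Fin n → K) (hb : IsZBasis b (O : Set K))
    (hdet : (Matrix.of fun i j => σ j (b i)).det ≠ 0) : (packetSet σ O).Nonempty := by
  classical
  set A : Matrix (Fin n) (Fin n) ℝ := Matrix.of fun i j => σ j (b i) with hA
  set D : ℝ := A.det with hD
  have hD0 : D ≠ 0 := hdet
  let j0 : Fin n := ⟨0, Nat.pos_of_ne_zero hn⟩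
  let d : Fin n → ℝ := Function.update 1 j0 D⁻¹
  have hd : ∀ j, d j ≠ 0 := by
    intro j
    by_cases hj : j = j0
    · subst hj; simp [d, hD0]
    · simp [d, Function.update_of_ne hj]
  have hprod : ∏ j, d j = D⁻¹ := by
    change ∏ j, Function.update (1 : Fin n → ℝ) j0 D⁻¹ j = D⁻¹
    rw [Finset.prod_update_of_mem (Finset.mem_univ _)]
    simp
  have hdet' : (A * Matrix.diagonal d).det = 1 := by
    rw [Matrix.det_mul, Matrix.det_diagonal, hprod, ← hD]
    field_simp
  let g : G n := ⟨A * Matrix.diagonal d, hdet'⟩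
  have hsum : ∀ (c : Fin n → ℤ) (j : Fin n),
      σ j (∑ i, (c i : K) * b i) = ((fun i => (c i : ℝ)) ᵥ* A) j := by
    intro c j
    rw [map_sum]
    simp [Matrix.vecMul, dotProduct, hA, map_mul]
  refine ⟨mk g, g, rfl, O.toAddSubgroup, ⟨fun _ hr _ hx => O.mul_mem hr hx, b, hb⟩, d, hd, ?_⟩
  ext v
  constructor
  · rintro ⟨z, rfl⟩
    refine ⟨∑ i, (z i : K) * b i, ?_, fun j => ?_⟩
    · exact (hb.1 _).mpr ⟨z, rfl⟩
    · rw [hsum]
      change ((fun i => (z i : ℝ)) ᵥ* (A * Matrix.diagonal d)) j = _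
      rw [← Matrix.vecMul_vecMul, Matrix.vecMul_diagonal]
  · rintro ⟨y, hy, hv⟩
    obtain ⟨z, rfl⟩ := (hb.1 y).mp hy
    refine ⟨z, ?_⟩
    ext j
    rw [hv j, hsum]
    change ((fun i => (z i : ℝ)) ᵥ* (A * Matrix.diagonal d)) j = _
    rw [← Matrix.vecMul_vecMul, Matrix.vecMul_diagonal]

/-- A family with nonzero embedding determinant is `Z`-independent. -/
lemma zindep_of_det {K : Type*} [Field K] {n : ℕ} (σ : Fin n → K →+* ℝ) (b : Fin n → K)
    (hdet : (Matrix.of fun i j => σ j (b i)).det ≠ 0) (c : Fin n → ℤ)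
    (hc : ∑ i, (c i : K) * b i = 0) : c = 0 := by
  have h1 : (fun i => (c i : ℝ)) ᵥ* (Matrix.of fun i j => σ j (b i)) = 0 := by
    ext j
    have := congrArg (σ j) hc
    rw [map_sum, map_zero] at this
    simpa [Matrix.vecMul, dotProduct, map_mul] using this
  have h2 : (fun i => (c i : ℝ)) = 0 := Matrix.eq_zero_of_vecMul_eq_zero hdet h1
  ext i
  have := congrFun h2 i
  simpa using this

section Abstract

variable {K : Type} [Field K] {θ : K} {g H : ℤ[X]} {d e : ℕ}

/-- Reindexing of the `Z`-span description through `finProdFinEquiv`. -/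
lemma mem_zspan_reindex {K : Type*} [CommRing K] {d e : ℕ} (b : Fin d × Fin e → K) (x : K) :
    x ∈ zspan b ↔ ∃ c : Fin (d * e) → ℤ,
      x = ∑ i, (c i : K) * b (finProdFinEquiv.symm i) := by
  constructor
  · rintro ⟨c, rfl⟩
    refine ⟨c ∘ finProdFinEquiv.symm, ?_⟩
    rw [← Equiv.sum_comp finProdFinEquiv.symm (fun p => (c p : K) * b p)]
    rfl
  · rintro ⟨c, rfl⟩
    refine ⟨c ∘ finProdFinEquiv, ?_⟩
    rw [← Equiv.sum_comp finProdFinEquiv.symm (fun p => ((c ∘ finProdFinEquiv) p : K) * b p)]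
    refine Finset.sum_congr rfl fun i _ => ?_
    simp only [Function.comp, Equiv.apply_symm_apply]

/-- The matrix of the embedded basis in the `Fin (d * e)` indexing. -/
lemma det_reindex (he : e ≠ 0)
    (emb : Fin d × Fin e → K →+* ℝ) (y : Fin d → ℝ) (x : Fin d × Fin e → ℝ)
    (hθ : ∀ p, emb p θ = x p) (hα : ∀ p, emb p (aeval θ H) = y p.1) (m : ℕ) :
    (Matrix.of fun i j : Fin (d * e) => emb (finProdFinEquiv.symm j)
      (bas (aeval θ H) θ d e m (finProdFinEquiv.symm i))).det =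
    (m : ℝ) ^ (d * (e - 1)) * (M1 y x).det := by
  rw [← Mm_det he]
  have : (Matrix.of fun i j : Fin (d * e) => emb (finProdFinEquiv.symm j)
      (bas (aeval θ H) θ d e m (finProdFinEquiv.symm i))) =
      (Mm m y x).submatrix finProdFinEquiv.symm finProdFinEquiv.symm := by
    ext i j
    simp only [Matrix.of_apply, Matrix.submatrix_apply, Mm, M1, bas, s1, map_mul, map_natCast,
      map_pow, hθ, hα]
  rw [this, Matrix.det_submatrix_equiv_self]

end Abstract

end Vale.Agent.Lib.P007
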