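import Vale.Agent.Lib.P007.CompDet

open Matrix Topology MeasureTheory Filter Set

namespace Vale.Agent.Lib.P007

open Polynomial

lemma mem_orderC_iff' {K : Type*} [CommRing K] {θ : K} {g H : ℤ[X]} {d e m : ℕ}
    (hdg : g.natDegree = d) (heH : H.natDegree = e) (hg : g.Monic) (hd0 : d ≠ 0)
    (hH : H.Monic) (he0 : e ≠ 0) (hα : aeval (aeval θ H) g = 0) {x : K} :
    x ∈ orderC θ H m ↔ x ∈ zspan (bas (aeval θ H) θ d e m) := by
  subst hdg heH
  exact mem_orderC_iff hg hd0 hH he0 hα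

section Field

variable {d e : ℕ}

instance [NeZero d] [NeZero e] : Fact (Irreducible (fQ d e)) :=
  ⟨fQ_irreducible (NeZero.ne d) (NeZero.ne e)⟩

/-- The totally real field `Q(θ)`, `θ` a root of `f_{d,e} = (D_d + 2) ∘ D_e`. -/
abbrev KK (d e : ℕ) : Type := AdjoinRoot (fQ d e)

/-- The generator `θ`. -/
noncomputable def thetaK (d e : ℕ) : KK d e := AdjoinRoot.root (fQ d e)

lemma fQ_ne_zero [NeZero d] [NeZero e] : fQ d e ≠ 0 :=
  (fQ_irreducible (NeZero.ne d) (NeZero.ne e)).ne_zero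

lemma finrank_KK [NeZero d] [NeZero e] : Module.finrank ℚ (KK d e) = d * e := by
  have := (AdjoinRoot.powerBasis (fQ_ne_zero (d := d) (e := e))).finrank
  rw [this, AdjoinRoot.powerBasis_dim, fQ_natDegree (NeZero.ne d) (NeZero.ne e)]

noncomputable instance [NeZero d] [NeZero e] : NumberField (KK d e) where
  to_charZero := charZero_of_injective_algebraMap (algebraMap ℚ (KK d e)).injective
  to_finiteDimensional := (AdjoinRoot.powerBasis (fQ_ne_zero (d := d) (e := e))).finite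

lemma aeval_theta_fZ : aeval (thetaK d e) (fZ d e) = 0 := by
  have h := AdjoinRoot.eval₂_root (fQ d e)
  rw [fQ, eval₂_map] at h
  rw [aeval_def]
  have h2 : algebraMap ℤ (KK d e) =
      (AdjoinRoot.of ((fZ d e).map (Int.castRingHom ℚ))).comp (Int.castRingHom ℚ) :=
    Subsingleton.elim _ _
  rw [h2]
  exact h

lemma aeval_alpha_gZ : aeval (aeval (thetaK d e) (dD e)) (gZ d) = 0 := by
  rw [← aeval_comp]
  exact aeval_theta_fZ

lemma fQ_eval₂_xR (hd : d ≠ 0) (he : 2 ≤ e) (p : Fin d × Fin e) :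
    (fQ d e).eval₂ (algebraMap ℚ ℝ) (xR d e p) = 0 := by
  rw [fQ, eval₂_map]
  have h2 : (algebraMap ℚ ℝ).comp (Int.castRingHom ℚ) = Int.castRingHom ℝ :=
    Subsingleton.elim _ _
  rw [h2]
  exact fZ_eval_xR hd he p

/-- The real embedding with `θ ↦ x_{i,k}`. -/
noncomputable def embK (hd : d ≠ 0) (he : 2 ≤ e) (p : Fin d × Fin e) : KK d e →+* ℝ :=
  AdjoinRoot.lift (algebraMap ℚ ℝ) (xR d e p) (fQ_eval₂_xR hd he p)

lemma embK_theta (hd : d ≠ 0) (he : 2 ≤ e) (p : Fin d × Fin e) :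
    embK hd he p (thetaK d e) = xR d e p := by
  unfold embK thetaK
  exact AdjoinRoot.lift_root _

lemma embK_aeval (hd : d ≠ 0) (he : 2 ≤ e) (p : Fin d × Fin e) (q : ℤ[X]) :
    embK hd he p (aeval (thetaK d e) q) = q.eval₂ (Int.castRingHom ℝ) (xR d e p) := by
  rw [aeval_def, hom_eval₂, embK_theta]
  congr 1
  exact Subsingleton.elim _ _

lemma embK_alpha (hd : d ≠ 0) (he : 2 ≤ e) (p : Fin d × Fin e) :
    embK hd he p (aeval (thetaK d e) (dD e)) = yR d p.1 := by
  rw [embK_aeval, dD_xR he]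

lemma embK_injective (hd : d ≠ 0) (he : 2 ≤ e) : Function.Injective (embK (d := d) (e := e) hd he) := by
  intro p p' h
  apply xR_injective hd he
  rw [← embK_theta hd he, ← embK_theta hd he, h]

lemma embK_surjective (hd : d ≠ 0) (he : 2 ≤ e) :
    Function.Surjective (embK (d := d) (e := e) hd he) := by
  intro φ
  have h1 : (fZ d e).eval₂ (Int.castRingHom ℝ) (φ (thetaK d e)) = 0 := by
    have h0 := congrArg φ (aeval_theta_fZ (d := d) (e := e))
    rw [aeval_def, hom_eval₂, map_zero] at h0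
    rw [← h0]
    congr 1
    exact Subsingleton.elim _ _
  obtain ⟨p, hp⟩ := fZ_root_cases hd he h1
  refine ⟨p, ?_⟩
  apply AdjoinRoot.ringHom_ext
  · exact RingHom.ext_rat _ _
  · change embK hd he p (thetaK d e) = φ (thetaK d e)
    rw [embK_theta, hp]

end Field

/-- Main theorem for `n = d e`. -/
theorem main_composite (d e : ℕ) (hd : 2 ≤ d) (he : 2 ≤ e) :
    ∃ (K : Type) (_ : Field K) (_ : NumberField K) (σ : Fin (d * e) → K →+* ℝ)
      (O : ℕ → Subring K) (b : ℕ → Fin (d * e) → K) (α : K),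
      Module.finrank ℚ K = d * e ∧ Function.Bijective σ ∧
      (∀ m, α ∈ O m) ∧
      (∀ m, 0 < m → IsZBasis (b m) (O m : Set K) ∧
        (Matrix.of fun i j => σ j (b m i)).det ≠ 0 ∧ (packetSet σ (O m)).Nonempty) ∧
      Tendsto (fun m : ℕ => (Matrix.of fun i j => σ j (b m i)).det ^ 2) atTop atTop ∧
      ∃ f : C(X (d * e), ℝ), HasCompactSupport f ∧ (∀ x, 0 ≤ f x) ∧
        (∀ m₀ : Measure (X (d * e)), IsProbabilityMeasure m₀ → IsRightInvariant m₀ →
          0 < ∫ x, f x ∂m₀) ∧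
        ∀ m, 0 < m → ∀ μ : Measure (X (d * e)), (∀ᵐ x ∂μ, x ∈ packetSet σ (O m)) →
          ∫ x, f x ∂μ = 0 := by
  have hd0 : d ≠ 0 := by omega
  have he0 : e ≠ 0 := by omega
  have : NeZero d := ⟨hd0⟩
  have : NeZero e := ⟨he0⟩
  set θ : KK d e := thetaK d e with hθdef
  set α : KK d e := aeval θ (dD e) with hαdef
  let σ : Fin (d * e) → KK d e →+* ℝ := fun j => embK hd0 he (finProdFinEquiv.symm j)
  let O : ℕ → Subring (KK d e) := fun m => orderC θ (dD e) m
  let b : ℕ → Fin (d * e) → KK d e := fun m i => bas α θ d e m (finProdFinEquiv.symm i)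
  have hy : Function.Injective (yR d) := yR_injective hd0
  have hx : ∀ i, Function.Injective fun k => xR d e (i, k) := by
    intro i k l hkl
    have := xR_injective hd0 he hkl
    exact (Prod.ext_iff.mp this).2
  have hD : (M1 (yR d) (xR d e)).det ≠ 0 := M1_det_ne _ _ hy hx
  have hdet : ∀ m : ℕ, (Matrix.of fun i j => σ j (b m i)).det =
      (m : ℝ) ^ (d * (e - 1)) * (M1 (yR d) (xR d e)).det := fun m =>
    det_reindex he0 _ (yR d) (xR d e) (embK_theta hd0 he) (embK_alpha hd0 he) m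
  have hdetne : ∀ m : ℕ, 0 < m → (Matrix.of fun i j => σ j (b m i)).det ≠ 0 := by
    intro m hm
    rw [hdet]
    have : (m : ℝ) ≠ 0 := by exact_mod_cast hm.ne'
    positivity
  have hbasis : ∀ m : ℕ, 0 < m → IsZBasis (b m) (O m : Set (KK d e)) := by
    intro m hm
    refine ⟨fun x => ?_, zindep_of_det σ (b m) (hdetne m hm)⟩
    have h1 : x ∈ O m ↔ x ∈ zspan (bas α θ d e m) :=
      mem_orderC_iff' (gZ_natDegree hd0) (dD_natDegree he0) (gZ_monic hd0) hd0 (dD_monic he0) he0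
        aeval_alpha_gZ
    exact h1.trans (mem_zspan_reindex _ x)
  -- the test function
  let τ : Fin (d * e) → ℝ := fun j => yR d (finProdFinEquiv.symm j).1
  let j0 : Fin (d * e) := finProdFinEquiv
    ((⟨0, by omega⟩ : Fin d), (⟨0, by omega⟩ : Fin e))
  have hj : τ j0 ∉ Set.range (Int.cast : ℤ → ℝ) := by
    rintro ⟨z, hz⟩
    have h1 : (gZ d).eval₂ (Int.castRingHom ℝ) (τ j0) = 0 := gZ_eval_root hd0 _
    have h2 : (Int.castRingHom ℝ) z = τ j0 := hz
    rw [← h2, eval₂_at_apply] at h1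
    exact gZ_no_int_root hd z (by simpa using h1)
  obtain ⟨f, hfc, hf0, hfpos, hfμ⟩ := exists_test_function_packets τ hj
  refine ⟨KK d e, inferInstance, inferInstance, σ, O, b, α, finrank_KK, ?_, alpha_mem_orderC,
    fun m hm => ⟨hbasis m hm, hdetne m hm, ?_⟩, ?_, f, hfc, hf0, hfpos, fun m _ μ hμ => ?_⟩
  · refine Function.Bijective.comp ⟨embK_injective hd0 he, embK_surjective hd0 he⟩
      (finProdFinEquiv.symm.bijective)
  · exact packetSet_nonempty_of_basis (mul_ne_zero hd0 he0) σ (O m) (b m) (hbasis m hm)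
      (hdetne m hm)
  · have hD2 : 0 < (M1 (yR d) (xR d e)).det ^ 2 := by positivity
    have hne : (d * (e - 1)) * 2 ≠ 0 := by
      have : e - 1 ≠ 0 := by omega
      positivity
    have h1 : Tendsto (fun m : ℕ => (m : ℝ) ^ ((d * (e - 1)) * 2)) atTop atTop :=
      (tendsto_pow_atTop hne).comp tendsto_natCast_atTop_atTop
    have h2 := h1.atTop_mul_const hD2
    refine h2.congr fun m => ?_
    rw [hdet, mul_pow, pow_mul]
  · exact hfμ (KK d e) σ (O m) α (alpha_mem_orderC m) (fun j => embK_alpha hd0 he _) μ hμ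

/-- Every composite `n` is `d e` with `d, e ≥ 2`. -/
lemma exists_factors {n : ℕ} (h4 : 4 ≤ n) (hn : ¬ n.Prime) :
    ∃ d e, 2 ≤ d ∧ 2 ≤ e ∧ n = d * e := by
  have h1 : n ≠ 1 := by omega
  have hp := Nat.minFac_prime h1
  obtain ⟨e, he⟩ := Nat.minFac_dvd n
  refine ⟨n.minFac, e, hp.two_le, ?_, he⟩
  by_contra hlt
  have : e = 0 ∨ e = 1 := by omega
  rcases this with rfl | rfl
  · simp at he; omega
  · rw [mul_one] at he
    rw [he] at hn
    exact hn hp

end Vale.Agent.Lib.P007
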