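import Vale.Agent.Lib.P007.Dickson

open Matrix Topology MeasureTheory Filter Set

namespace Vale.Agent.Lib.P007

open Polynomial

/-- `g_d = D_d + 2`, the minimal polynomial of `α`. -/
noncomputable def gZ (d : ℕ) : ℤ[X] := dD d + C 2

/-- `f_{d,e} = g_d ∘ D_e`, the minimal polynomial of `θ`, of degree `d e`. -/
noncomputable def fZ (d e : ℕ) : ℤ[X] := (gZ d).comp (dD e)

lemma gZ_natDegree {d : ℕ} (hd : d ≠ 0) : (gZ d).natDegree = d := by
  unfold gZ
  rw [natDegree_add_C, dD_natDegree hd]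

lemma gZ_monic {d : ℕ} (hd : d ≠ 0) : (gZ d).Monic := by
  unfold gZ
  refine (dD_monic hd).add_of_left ?_
  refine lt_of_le_of_lt degree_C_le ?_
  rw [degree_eq_natDegree (dD_monic hd).ne_zero, dD_natDegree hd]
  exact_mod_cast Nat.pos_of_ne_zero hd

lemma fZ_natDegree {d e : ℕ} (hd : d ≠ 0) (he : e ≠ 0) : (fZ d e).natDegree = d * e := by
  unfold fZ
  rw [natDegree_comp, gZ_natDegree hd, dD_natDegree he]

lemma fZ_monic {d e : ℕ} (hd : d ≠ 0) (he : e ≠ 0) : (fZ d e).Monic := by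
  unfold fZ
  refine (gZ_monic hd).comp (dD_monic he) ?_
  rw [dD_natDegree he]; exact he

lemma map_two_eq_zero : (C 2 : ℤ[X]).map (Int.castRingHom (ZMod 2)) = 0 := by
  rw [map_C]
  have : (Int.castRingHom (ZMod 2)) 2 = 0 := by decide
  rw [this, C_0]

lemma gZ_map {d : ℕ} (hd : d ≠ 0) : (gZ d).map (Int.castRingHom (ZMod 2)) = Polynomial.X ^ d := by
  unfold gZ
  rw [Polynomial.map_add, dD_map_two hd, map_two_eq_zero, add_zero]

lemma fZ_map {d e : ℕ} (hd : d ≠ 0) (he : e ≠ 0) :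
    (fZ d e).map (Int.castRingHom (ZMod 2)) = Polynomial.X ^ (d * e) := by
  unfold fZ
  rw [Polynomial.map_comp, gZ_map hd, dD_map_two he, X_pow_comp, ← pow_mul, mul_comm]

/-- A monic integer polynomial that reduces to a pure power mod 2 and has constant term not
divisible by 4 is irreducible (Eisenstein). -/
lemma eisenstein_two {f : ℤ[X]} (hm : f.Monic) (hdeg : f.natDegree ≠ 0)
    (hmap : f.map (Int.castRingHom (ZMod 2)) = Polynomial.X ^ f.natDegree)
    (h0 : ¬ (4 : ℤ) ∣ f.coeff 0) : Irreducible f := by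
  have hP : (Ideal.span {(2 : ℤ)}).IsPrime :=
    (Ideal.span_singleton_prime two_ne_zero).mpr Int.prime_two
  have hmem : ∀ z : ℤ, z ∈ Ideal.span {(2 : ℤ)} ↔ (2 : ℤ) ∣ z := fun z => Ideal.mem_span_singleton
  refine irreducible_of_eisenstein_criterion hP ?_ ?_ ?_ ?_ hm.isPrimitive
  · rw [hm.leadingCoeff, hmem]
    norm_num
  · intro n hn
    rw [degree_eq_natDegree hm.ne_zero] at hn
    have hn' : n < f.natDegree := by exact_mod_cast hn
    have h1 : (f.map (Int.castRingHom (ZMod 2))).coeff n = 0 := by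
      rw [hmap, coeff_X_pow, if_neg hn'.ne]
    rw [coeff_map] at h1
    rw [hmem]
    exact (ZMod.intCast_zmod_eq_zero_iff_dvd _ 2).mp (by simpa using h1)
  · rw [degree_eq_natDegree hm.ne_zero]
    exact_mod_cast Nat.pos_of_ne_zero hdeg
  · simp only [Ideal.span_singleton_pow]
    rw [Ideal.mem_span_singleton]
    norm_num
    exact h0

lemma four_dvd_eval {p : ℤ[X]} {a : ℤ} (h : (4 : ℤ) ∣ a) (h0 : (4 : ℤ) ∣ p.eval 0) :
    (4 : ℤ) ∣ p.eval a := by
  have h1 := sub_dvd_eval_sub a 0 p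
  rw [sub_zero] at h1
  have h2 : (4 : ℤ) ∣ p.eval a - p.eval 0 := h.trans h1
  have := dvd_add h2 h0
  simpa using this

lemma gZ_not_four {d : ℕ} {a : ℤ} (hd : d ≠ 0) (ha : (4 : ℤ) ∣ a) :
    ¬ (4 : ℤ) ∣ (gZ d).eval a := by
  unfold gZ
  rw [eval_add, eval_C]
  have h := four_dvd_eval ha (dD_eval_zero hd)
  intro h2
  have h3 := (Int.dvd_add_right h).mp h2
  norm_num at h3

lemma gZ_irreducible {d : ℕ} (hd : d ≠ 0) : Irreducible (gZ d) := by
  refine eisenstein_two (gZ_monic hd) ?_ ?_ ?_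
  · rw [gZ_natDegree hd]; exact hd
  · rw [gZ_natDegree hd]; exact gZ_map hd
  · rw [coeff_zero_eq_eval_zero]
    exact gZ_not_four hd (dvd_zero _)

lemma fZ_irreducible {d e : ℕ} (hd : d ≠ 0) (he : e ≠ 0) : Irreducible (fZ d e) := by
  refine eisenstein_two (fZ_monic hd he) ?_ ?_ ?_
  · rw [fZ_natDegree hd he]; exact mul_ne_zero hd he
  · rw [fZ_natDegree hd he]; exact fZ_map hd he
  · rw [coeff_zero_eq_eval_zero]
    unfold fZ
    rw [eval_comp]
    exact gZ_not_four hd (dD_eval_zero he)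

/-- `g_d` with `d ≥ 2` has no integer root. -/
lemma gZ_no_int_root {d : ℕ} (hd : 2 ≤ d) (z : ℤ) : (gZ d).eval z ≠ 0 := by
  intro h
  have hd0 : d ≠ 0 := by omega
  have h1 := degree_eq_one_of_irreducible_of_root (gZ_irreducible hd0) (x := z) h
  rw [degree_eq_natDegree (gZ_monic hd0).ne_zero, gZ_natDegree hd0] at h1
  have : d = 1 := by exact_mod_cast h1
  omega

/-- The rational version. -/
noncomputable def fQ (d e : ℕ) : ℚ[X] := (fZ d e).map (Int.castRingHom ℚ)

lemma fQ_irreducible {d e : ℕ} (hd : d ≠ 0) (he : e ≠ 0) : Irreducible (fQ d e) :=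
  (Polynomial.IsPrimitive.Int.irreducible_iff_irreducible_map_cast
    (fZ_monic hd he).isPrimitive).mp (fZ_irreducible hd he)

lemma fQ_natDegree {d e : ℕ} (hd : d ≠ 0) (he : e ≠ 0) : (fQ d e).natDegree = d * e := by
  unfold fQ
  rw [(fZ_monic hd he).natDegree_map, fZ_natDegree hd he]

/-- Values at real points. -/
lemma gZ_eval_root {d : ℕ} (hd : d ≠ 0) (k : ℕ) :
    (gZ d).eval₂ (Int.castRingHom ℝ) (chebRoot d (-2) k) = 0 := by
  have h : |(-2 : ℝ)| < 2 ^ (d + 1) := by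
    have h1 : (2 : ℝ) ^ (d + 1) ≥ 2 ^ 2 := pow_le_pow_right₀ (by norm_num) (by omega)
    rw [abs_neg, abs_of_pos (by norm_num : (0 : ℝ) < 2)]
    nlinarith
  unfold gZ
  rw [eval₂_add, dD_chebRoot hd h, eval₂_C]
  simp

/-- The bound for the `e`-th level. -/
lemma abs_chebRoot_lt {d e : ℕ} (he : 2 ≤ e) (v : ℝ) (k : ℕ) :
    |chebRoot d v k| < 2 ^ (e + 1) := by
  have h1 : (2 : ℝ) ^ (e + 1) ≥ 2 ^ 3 := pow_le_pow_right₀ (by norm_num) (by omega)
  have h2 := chebRoot_abs_le d v k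
  norm_num at h1
  linarith

/-- The real roots `y_i` of `g_d`. -/
noncomputable def yR (d : ℕ) (i : Fin d) : ℝ := chebRoot d (-2) i

/-- The real roots `x_{i,k}` of `f_{d,e}` above `y_i`. -/
noncomputable def xR (d e : ℕ) (p : Fin d × Fin e) : ℝ := chebRoot e (yR d p.1) p.2

lemma yR_injective {d : ℕ} (hd : d ≠ 0) : Function.Injective (yR d) := by
  intro a b hab
  have h : |(-2 : ℝ)| < 2 ^ (d + 1) := by
    have h1 : (2 : ℝ) ^ (d + 1) ≥ 2 ^ 2 := pow_le_pow_right₀ (by norm_num) (by omega)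
    rw [abs_neg, abs_of_pos (by norm_num : (0 : ℝ) < 2)]
    nlinarith
  exact Fin.ext (chebRoot_inj hd h a.2 b.2 hab)

lemma dD_xR {d e : ℕ} (he : 2 ≤ e) (p : Fin d × Fin e) :
    (dD e).eval₂ (Int.castRingHom ℝ) (xR d e p) = yR d p.1 :=
  dD_chebRoot (by omega) (abs_chebRoot_lt he _ _) _

lemma xR_injective {d e : ℕ} (hd : d ≠ 0) (he : 2 ≤ e) : Function.Injective (xR d e) := by
  rintro ⟨a, k⟩ ⟨b, l⟩ h
  have h1 : yR d a = yR d b := by
    have h2 := dD_xR he (d := d) (a, k)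
    have h3 := dD_xR he (d := d) (b, l)
    rw [h] at h2
    rw [← h2]
    exact h3
  have hab : a = b := yR_injective hd h1
  subst hab
  have hkl : k = l :=
    Fin.ext (chebRoot_inj (by omega) (abs_chebRoot_lt he _ _) k.2 l.2 h)
  rw [hkl]

lemma fZ_eval_xR {d e : ℕ} (hd : d ≠ 0) (he : 2 ≤ e) (p : Fin d × Fin e) :
    (fZ d e).eval₂ (Int.castRingHom ℝ) (xR d e p) = 0 := by
  unfold fZ
  rw [eval₂_comp, dD_xR he]
  exact gZ_eval_root hd _

/-- The only real roots of `f_{d,e}` are the `x_{i,k}`. -/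
lemma fZ_root_cases {d e : ℕ} (hd : d ≠ 0) (he : 2 ≤ e) {t : ℝ}
    (ht : (fZ d e).eval₂ (Int.castRingHom ℝ) t = 0) : ∃ p, xR d e p = t := by
  classical
  have he0 : e ≠ 0 := by omega
  set F : ℝ[X] := (fZ d e).map (Int.castRingHom ℝ) with hF
  have hFm : F.Monic := (fZ_monic hd he0).map _
  have hdeg : F.natDegree = d * e := by
    rw [hF, (fZ_monic hd he0).natDegree_map, fZ_natDegree hd he0]
  have hsub : (Finset.univ.image (xR d e)) ⊆ F.roots.toFinset := by
    intro a ha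
    obtain ⟨p, -, rfl⟩ := Finset.mem_image.mp ha
    rw [Multiset.mem_toFinset, mem_roots hFm.ne_zero, IsRoot, hF, eval_map]
    exact fZ_eval_xR hd he p
  have hcard : F.roots.toFinset.card ≤ (Finset.univ.image (xR d e)).card := by
    rw [Finset.card_image_of_injective _ (xR_injective hd he), Finset.card_univ,
      Fintype.card_prod, Fintype.card_fin, Fintype.card_fin, ← hdeg]
    exact (Multiset.toFinset_card_le _).trans (card_roots' F)
  have heq := Finset.eq_of_subset_of_card_le hsub hcard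
  have htm : t ∈ F.roots.toFinset := by
    rw [Multiset.mem_toFinset, mem_roots hFm.ne_zero, IsRoot, hF, eval_map]
    exact ht
  rw [← heq] at htm
  obtain ⟨p, -, hp⟩ := Finset.mem_image.mp htm
  exact ⟨p, hp⟩

end Vale.Agent.Lib.P007
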