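import Vale.Agent.Lib.P007.CompPoly

open Matrix Topology MeasureTheory Filter Set

namespace Vale.Agent.Lib.P007

open Polynomial

section Span

variable {K : Type*} [CommRing K]

/-- The `Z`-span of a finite family. -/
def zspan {ι : Type*} [Fintype ι] (b : ι → K) : AddSubgroup K where
  carrier := {x | ∃ c : ι → ℤ, x = ∑ i, (c i : K) * b i}
  add_mem' := by
    rintro _ _ ⟨c, rfl⟩ ⟨c', rfl⟩
    exact ⟨c + c', by simp [add_mul, Finset.sum_add_distrib]⟩
  zero_mem' := ⟨0, by simp⟩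
  neg_mem' := by
    rintro _ ⟨c, rfl⟩
    exact ⟨-c, by simp [Finset.sum_neg_distrib]⟩

lemma mem_zspan {ι : Type*} [Fintype ι] {b : ι → K} {x : K} :
    x ∈ zspan b ↔ ∃ c : ι → ℤ, x = ∑ i, (c i : K) * b i := Iff.rfl

lemma gen_mem_zspan {ι : Type*} [Fintype ι] [DecidableEq ι] (b : ι → K) (i : ι) :
    b i ∈ zspan b := by
  refine ⟨fun j => if j = i then 1 else 0, ?_⟩
  simp [ite_mul]

lemma zspan_le {ι : Type*} [Fintype ι] {b : ι → K} {S : AddSubgroup K} (h : ∀ i, b i ∈ S) :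
    zspan b ≤ S := by
  rintro _ ⟨c, rfl⟩
  refine S.sum_mem fun i _ => ?_
  rw [← zsmul_eq_mul]
  exact S.zsmul_mem (h i) _

lemma zspan_mul_closed {ι : Type*} [Fintype ι] {b : ι → K} (t : K)
    (h : ∀ i, t * b i ∈ zspan b) {x : K} (hx : x ∈ zspan b) : t * x ∈ zspan b := by
  obtain ⟨c, rfl⟩ := hx
  rw [Finset.mul_sum]
  refine (zspan b).sum_mem fun i _ => ?_
  have : t * ((c i : K) * b i) = c i • (t * b i) := by
    rw [zsmul_eq_mul]; ring
  rw [this]
  exact (zspan b).zsmul_mem (h i) _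

/-- Powers `α^i`. -/
def s0 (α : K) (d : ℕ) : Fin d → K := fun i => α ^ (i : ℕ)

/-- Products `α^i θ^k`. -/
def s1 (α θ : K) (d e : ℕ) : Fin d × Fin e → K := fun p => α ^ (p.1 : ℕ) * θ ^ (p.2 : ℕ)

/-- Using a monic relation, every polynomial in `α` is a `Z`-combination of `α^i`, `i < d`. -/
lemma aeval_mem_s0 {α : K} {g : ℤ[X]} (hg : g.Monic) (hg0 : g.natDegree ≠ 0)
    (hα : aeval α g = 0) (p : ℤ[X]) : aeval α p ∈ zspan (s0 α g.natDegree) := by
  have hne : g ≠ 1 := by
    intro h; rw [h] at hg0; simp at hg0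
  have hlt := natDegree_modByMonic_lt p hg hne
  have h1 : aeval α p = aeval α (p %ₘ g) := by
    conv_lhs => rw [← modByMonic_add_div p g]
    rw [map_add, map_mul, hα, zero_mul, add_zero]
  rw [h1, aeval_eq_sum_range' hlt, Finset.sum_range]
  refine ⟨fun i => (p %ₘ g).coeff i, ?_⟩
  refine Finset.sum_congr rfl fun i _ => ?_
  rw [zsmul_eq_mul]
  rfl

variable {α θ : K} {g H : ℤ[X]}

lemma s0_le_s1 {d e : ℕ} (he : e ≠ 0) : zspan (s0 α d) ≤ zspan (s1 α θ d e) := by
  classical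
  refine zspan_le fun i => ?_
  have : s0 α d i = s1 α θ d e (i, ⟨0, Nat.pos_of_ne_zero he⟩) := by
    simp [s0, s1]
  rw [this]
  exact gen_mem_zspan _ _

/-- `θ` times a generator stays in the span. -/
lemma theta_mul_s1 (hg : g.Monic) (hg0 : g.natDegree ≠ 0) (hH : H.Monic) (hH0 : H.natDegree ≠ 0)
    (hα : aeval α g = 0) (hθ : aeval θ H = α) (p : Fin g.natDegree × Fin H.natDegree) :
    θ * s1 α θ g.natDegree H.natDegree p ∈ zspan (s1 α θ g.natDegree H.natDegree) := by
  classical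
  obtain ⟨i, k⟩ := p
  by_cases hk : (k : ℕ) + 1 < H.natDegree
  · have : θ * s1 α θ g.natDegree H.natDegree (i, k) =
        s1 α θ g.natDegree H.natDegree (i, ⟨k + 1, hk⟩) := by
      simp only [s1]; ring
    rw [this]
    exact gen_mem_zspan _ _
  · have hk' : (k : ℕ) + 1 = H.natDegree := by
      have := k.2; omega
    have h1 : α = θ ^ H.natDegree + ∑ j ∈ Finset.range H.natDegree, (H.coeff j : K) * θ ^ j := by
      rw [← hθ]
      conv_lhs => rw [hH.as_sum]
      simp [map_add, map_sum]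
    have h2 : θ * s1 α θ g.natDegree H.natDegree (i, k) =
        α ^ ((i : ℕ) + 1) - ∑ j : Fin H.natDegree,
          (H.coeff j : K) * s1 α θ g.natDegree H.natDegree (i, j) := by
      simp only [s1]
      rw [Finset.sum_range] at h1
      have h3 : α ^ ((i : ℕ) + 1) = α ^ (i : ℕ) * α := by ring
      have h4 : ∑ j : Fin H.natDegree, (H.coeff j : K) * (α ^ (i : ℕ) * θ ^ (j : ℕ)) =
          α ^ (i : ℕ) * ∑ j : Fin H.natDegree, (H.coeff j : K) * θ ^ (j : ℕ) := by
        rw [Finset.mul_sum]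
        refine Finset.sum_congr rfl fun j _ => ?_
        ring
      rw [h4, h3]
      have h5 : θ ^ (k : ℕ) * θ = θ ^ H.natDegree := by
        rw [← pow_succ, hk']
      linear_combination (α ^ (i : ℕ)) * h5 - (α ^ (i : ℕ)) * h1
    rw [h2]
    refine AddSubgroup.sub_mem _ ?_ ?_
    · apply s0_le_s1 hH0
      have := aeval_mem_s0 hg hg0 hα (Polynomial.X ^ ((i : ℕ) + 1))
      simpa using this
    · refine AddSubgroup.sum_mem _ fun j _ => ?_
      rw [← zsmul_eq_mul]
      exact AddSubgroup.zsmul_mem _ (gen_mem_zspan _ _) _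

/-- Every polynomial in `θ` lies in the span of the `α^i θ^k`. -/
lemma aeval_mem_s1 (hg : g.Monic) (hg0 : g.natDegree ≠ 0) (hH : H.Monic) (hH0 : H.natDegree ≠ 0)
    (hα : aeval α g = 0) (hθ : aeval θ H = α) (q : ℤ[X]) :
    aeval θ q ∈ zspan (s1 α θ g.natDegree H.natDegree) := by
  classical
  have hpow : ∀ i : ℕ, θ ^ i ∈ zspan (s1 α θ g.natDegree H.natDegree) := by
    intro i
    induction i with
    | zero =>
      have : θ ^ 0 = s1 α θ g.natDegree H.natDegree
          (⟨0, Nat.pos_of_ne_zero hg0⟩, ⟨0, Nat.pos_of_ne_zero hH0⟩) := by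
        simp [s1]
      rw [this]
      exact gen_mem_zspan _ _
    | succ i ih =>
      rw [pow_succ']
      exact zspan_mul_closed θ (theta_mul_s1 hg hg0 hH hH0 hα hθ) ih
  rw [aeval_eq_sum_range]
  refine AddSubgroup.sum_mem _ fun j _ => ?_
  exact AddSubgroup.zsmul_mem _ (hpow j) _

/-- The scaling factor of the basis of the order. -/
def scal (m : ℕ) (e : ℕ) (k : Fin e) : ℕ := if (k : ℕ) = 0 then 1 else m

/-- The basis of `O_m = Z[α] + m Z[θ]`. -/
def bas (α θ : K) (d e m : ℕ) : Fin d × Fin e → K :=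
  fun p => (scal m e p.2 : K) * s1 α θ d e p

/-- The order `O_m = Z[α] + m Z[θ]`, `α = H(θ)`. -/
noncomputable def orderC (θ : K) (H : ℤ[X]) (m : ℕ) : Subring K where
  carrier := {x | ∃ p q : ℤ[X], x = aeval (aeval θ H) p + (m : K) * aeval θ q}
  mul_mem' := by
    rintro x y ⟨p, q, rfl⟩ ⟨p', q', rfl⟩
    refine ⟨p * p', (p.comp H) * q' + q * (p'.comp H) + (m : ℤ[X]) * (q * q'), ?_⟩
    simp only [map_mul, map_add, aeval_comp, map_natCast]
    ring
  one_mem' := ⟨1, 0, by simp⟩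
  add_mem' := by
    rintro x y ⟨p, q, rfl⟩ ⟨p', q', rfl⟩
    refine ⟨p + p', q + q', ?_⟩
    simp only [map_add]
    ring
  zero_mem' := ⟨0, 0, by simp⟩
  neg_mem' := by
    rintro x ⟨p, q, rfl⟩
    refine ⟨-p, -q, ?_⟩
    simp only [map_neg]
    ring

lemma mem_orderC {m : ℕ} {x : K} :
    x ∈ orderC θ H m ↔ ∃ p q : ℤ[X], x = aeval (aeval θ H) p + (m : K) * aeval θ q := Iff.rfl

lemma alpha_mem_orderC (m : ℕ) : aeval θ H ∈ orderC θ H m :=
  ⟨Polynomial.X, 0, by simp⟩

lemma bas_mem_orderC {d e m : ℕ} (p : Fin d × Fin e) :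
    bas (aeval θ H) θ d e m p ∈ orderC θ H m := by
  obtain ⟨i, k⟩ := p
  by_cases hk : (k : ℕ) = 0
  · refine ⟨Polynomial.X ^ (i : ℕ), 0, ?_⟩
    simp [bas, scal, s1, hk]
  · refine ⟨0, H ^ (i : ℕ) * Polynomial.X ^ (k : ℕ), ?_⟩
    simp [bas, scal, s1, hk]

/-- The order `O_m` is exactly the `Z`-span of `bas`. -/
lemma mem_orderC_iff {m : ℕ} (hg : g.Monic) (hg0 : g.natDegree ≠ 0) (hH : H.Monic)
    (hH0 : H.natDegree ≠ 0) (hα : aeval (aeval θ H) g = 0) {x : K} :
    x ∈ orderC θ H m ↔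
      x ∈ zspan (bas (aeval θ H) θ g.natDegree H.natDegree m) := by
  classical
  constructor
  · rintro ⟨p, q, rfl⟩
    refine AddSubgroup.add_mem _ ?_ ?_
    · have h1 := aeval_mem_s0 hg hg0 hα p
      refine zspan_le (fun i => ?_) h1
      have : s0 (aeval θ H) g.natDegree i =
          bas (aeval θ H) θ g.natDegree H.natDegree m (i, ⟨0, Nat.pos_of_ne_zero hH0⟩) := by
        simp [bas, scal, s0, s1]
      rw [this]
      exact gen_mem_zspan _ _
    · have h1 := aeval_mem_s1 hg hg0 hH hH0 hα rfl q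
      obtain ⟨c, hc⟩ := h1
      rw [hc, Finset.mul_sum]
      refine AddSubgroup.sum_mem _ fun r _ => ?_
      have h2 : (m : K) * ((c r : K) * s1 (aeval θ H) θ g.natDegree H.natDegree r) =
          c r • ((m : K) * s1 (aeval θ H) θ g.natDegree H.natDegree r) := by
        rw [zsmul_eq_mul]; ring
      rw [h2]
      refine AddSubgroup.zsmul_mem _ ?_ _
      by_cases hk : (r.2 : ℕ) = 0
      · have h3 : (m : K) * s1 (aeval θ H) θ g.natDegree H.natDegree r =
            m • bas (aeval θ H) θ g.natDegree H.natDegree m r := by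
          simp [bas, scal, hk]
        rw [h3]
        exact AddSubgroup.nsmul_mem _ (gen_mem_zspan _ _) _
      · have h3 : (m : K) * s1 (aeval θ H) θ g.natDegree H.natDegree r =
            bas (aeval θ H) θ g.natDegree H.natDegree m r := by
          simp [bas, scal, hk]
        rw [h3]
        exact gen_mem_zspan _ _
  · intro h
    have : zspan (bas (aeval θ H) θ g.natDegree H.natDegree m) ≤ (orderC θ H m).toAddSubgroup :=
      zspan_le fun p => bas_mem_orderC p
    exact this h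

end Span

end Vale.Agent.Lib.P007
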