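import Vale.Agent.Lib.P007.Packet

open Matrix Topology MeasureTheory Filter Set

namespace Vale.Agent.Lib.P007

open Polynomial

/-- The Dickson polynomial `D_n(x, 4)`: `D_0 = 2`, `D_1 = x`, `D_{n+2} = x D_{n+1} - 4 D_n`.
It satisfies `D_n(4 cos ψ) = 2^(n+1) cos(n ψ)`. -/
noncomputable def dD : ℕ → ℤ[X]
  | 0 => 2
  | 1 => Polynomial.X
  | n + 2 => Polynomial.X * dD (n + 1) - 4 * dD n

lemma dD_add_two (n : ℕ) : dD (n + 2) = Polynomial.X * dD (n + 1) - 4 * dD n := rfl

/-- Degree and leading coefficient at the same time. -/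
lemma dD_aux (n : ℕ) : (dD (n + 1)).natDegree = n + 1 ∧ (dD (n + 1)).Monic ∧
    (dD n).natDegree ≤ n := by
  induction n using Nat.strong_induction_on with
  | _ n ih =>
    match n with
    | 0 =>
      refine ⟨by simp [dD], by simp [dD, monic_X], ?_⟩
      have : dD 0 = C 2 := by simp [dD]
      rw [this]; simp
    | 1 =>
      have h2 : dD 2 = Polynomial.X * Polynomial.X - C 4 * C 2 := by
        rw [dD_add_two]; simp [dD]
      have hm : (dD 2).Monic := by rw [h2]; monicity!
      have hd : (dD 2).natDegree = 2 := by rw [h2]; compute_degree!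
      exact ⟨hd, hm, by simp [dD]⟩
    | k + 2 =>
      obtain ⟨h1, h2, h3⟩ := ih (k + 1) (by omega)
      obtain ⟨h1', h2', h3'⟩ := ih k (by omega)
      have hdeg : (Polynomial.X * dD (k + 2)).natDegree = k + 3 := by
        rw [natDegree_X_mul h2.ne_zero, h1]
      have hlow : (4 * dD (k + 1)).natDegree ≤ k + 1 := by
        have : (4 : ℤ[X]) = C 4 := by simp
        rw [this]
        exact (natDegree_C_mul_le _ _).trans h1'.le
      have hm : (Polynomial.X * dD (k + 2)).Monic := monic_X.mul h2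
      have hlt : (4 * dD (k + 1)).degree < (Polynomial.X * dD (k + 2)).degree := by
        rw [degree_eq_natDegree hm.ne_zero, hdeg]
        exact lt_of_le_of_lt (degree_le_of_natDegree_le hlow) (by exact_mod_cast (by omega : k + 1 < k + 3))
      refine ⟨?_, ?_, ?_⟩
      · rw [show k + 2 + 1 = k + 1 + 2 from rfl, dD_add_two]
        rw [natDegree_sub_eq_left_of_natDegree_lt]
        · exact hdeg
        · rw [hdeg]; omega
      · rw [show k + 2 + 1 = k + 1 + 2 from rfl, dD_add_two]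
        exact hm.sub_of_left hlt
      · exact h1.le

lemma dD_natDegree {n : ℕ} (hn : n ≠ 0) : (dD n).natDegree = n := by
  obtain ⟨k, rfl⟩ := Nat.exists_eq_succ_of_ne_zero hn
  exact (dD_aux k).1

lemma dD_monic {n : ℕ} (hn : n ≠ 0) : (dD n).Monic := by
  obtain ⟨k, rfl⟩ := Nat.exists_eq_succ_of_ne_zero hn
  exact (dD_aux k).2.1

/-- Reduction mod 2. -/
lemma dD_map_two {n : ℕ} (hn : n ≠ 0) : (dD n).map (Int.castRingHom (ZMod 2)) = Polynomial.X ^ n := by
  have h4 : (4 : (ZMod 2)[X]) = 0 := by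
    have : (4 : ZMod 2) = 0 := by decide
    rw [show (4 : (ZMod 2)[X]) = C 4 from (map_ofNat C 4).symm, this, C_0]
  induction n using Nat.strong_induction_on with
  | _ n ih =>
    match n with
    | 0 => exact absurd rfl hn
    | 1 => simp [dD]
    | k + 2 =>
      rw [dD_add_two]
      simp only [Polynomial.map_sub, Polynomial.map_mul, Polynomial.map_X, ih (k + 1) (by omega) (by omega)]
      have : (Polynomial.map (Int.castRingHom (ZMod 2)) (4 : ℤ[X])) = 0 := by
        rw [Polynomial.map_ofNat]; exact h4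
      rw [this]
      ring

/-- Value at zero is divisible by 4 for `n ≥ 1`. -/
lemma dD_eval_zero {n : ℕ} (hn : n ≠ 0) : (4 : ℤ) ∣ (dD n).eval 0 := by
  induction n using Nat.strong_induction_on with
  | _ n ih =>
    match n with
    | 0 => exact absurd rfl hn
    | 1 => simp [dD]
    | k + 2 =>
      rw [dD_add_two]
      simp

/-- The trigonometric identity. -/
lemma dD_cos (n : ℕ) (ψ : ℝ) :
    (dD n).eval₂ (Int.castRingHom ℝ) (4 * Real.cos ψ) = 2 ^ (n + 1) * Real.cos (n * ψ) := by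
  induction n using Nat.strong_induction_on with
  | _ n ih =>
    match n with
    | 0 => simp [dD]
    | 1 => simp [dD]; ring_nf; simp
    | k + 2 =>
      rw [dD_add_two]
      simp only [eval₂_sub, eval₂_mul, eval₂_X, ih (k + 1) (by omega), ih k (by omega)]
      have h4 : (4 : ℤ[X]).eval₂ (Int.castRingHom ℝ) (4 * Real.cos ψ) = 4 := by
        rw [show (4 : ℤ[X]) = C 4 by simp, eval₂_C]; simp
      rw [h4]
      have e1 : ((k + 2 : ℕ) : ℝ) * ψ = ((k + 1 : ℕ) : ℝ) * ψ + ψ := by push_cast; ring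
      have e2 : ((k : ℕ) : ℝ) * ψ = ((k + 1 : ℕ) : ℝ) * ψ - ψ := by push_cast; ring
      rw [e1, e2, Real.cos_add, Real.cos_sub]
      ring

/-- Angles `ψ_k` for solving `D_e(x) = v`. -/
noncomputable def ang (e : ℕ) (v : ℝ) (k : ℕ) : ℝ :=
  (Real.pi * k + (if Even k then Real.arccos (v / 2 ^ (e + 1))
    else Real.pi - Real.arccos (v / 2 ^ (e + 1)))) / e

/-- The root `4 cos ψ_k` of `D_e(x) = v`. -/
noncomputable def chebRoot (e : ℕ) (v : ℝ) (k : ℕ) : ℝ := 4 * Real.cos (ang e v k)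

lemma chebRoot_abs_le (e : ℕ) (v : ℝ) (k : ℕ) : |chebRoot e v k| ≤ 4 := by
  unfold chebRoot
  rw [abs_mul]
  have := Real.abs_cos_le_one (ang e v k)
  norm_num
  linarith

lemma cos_mul_ang {e : ℕ} (he : e ≠ 0) {v : ℝ} (hv : |v| < 2 ^ (e + 1)) (k : ℕ) :
    Real.cos (e * ang e v k) = v / 2 ^ (e + 1) := by
  have hpos : (0 : ℝ) < 2 ^ (e + 1) := by positivity
  have ht : |v / 2 ^ (e + 1)| ≤ 1 := by
    rw [abs_div, abs_of_pos hpos, div_le_one hpos]; exact hv.le
  have ht' := abs_le.mp ht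
  have he' : (e : ℝ) ≠ 0 := by exact_mod_cast he
  have h1 : (e : ℝ) * ang e v k = Real.pi * k + (if Even k then Real.arccos (v / 2 ^ (e + 1))
      else Real.pi - Real.arccos (v / 2 ^ (e + 1))) := by
    unfold ang; field_simp
  rw [h1]
  by_cases hk : Even k
  · rw [if_pos hk]
    obtain ⟨j, rfl⟩ := hk
    have : Real.pi * ((j + j : ℕ) : ℝ) + Real.arccos (v / 2 ^ (e + 1)) =
        Real.arccos (v / 2 ^ (e + 1)) + j * (2 * Real.pi) := by push_cast; ring
    rw [this, Real.cos_add_nat_mul_two_pi, Real.cos_arccos ht'.1 ht'.2]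
  · rw [if_neg hk]
    obtain ⟨j, rfl⟩ := Nat.not_even_iff_odd.mp hk
    have : Real.pi * ((2 * j + 1 : ℕ) : ℝ) + (Real.pi - Real.arccos (v / 2 ^ (e + 1))) =
        - Real.arccos (v / 2 ^ (e + 1)) + ((j + 1 : ℕ) : ℝ) * (2 * Real.pi) := by push_cast; ring
    rw [this, Real.cos_add_nat_mul_two_pi, Real.cos_neg, Real.cos_arccos ht'.1 ht'.2]

/-- `chebRoot` solves `D_e(x) = v`. -/
lemma dD_chebRoot {e : ℕ} (he : e ≠ 0) {v : ℝ} (hv : |v| < 2 ^ (e + 1)) (k : ℕ) :
    (dD e).eval₂ (Int.castRingHom ℝ) (chebRoot e v k) = v := by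
  unfold chebRoot
  rw [dD_cos, cos_mul_ang he hv]
  have hpos : (2 : ℝ) ^ (e + 1) ≠ 0 := by positivity
  field_simp

/-- `ψ_k` lies strictly between `π k / e` and `π (k + 1) / e`. -/
lemma ang_bounds {e : ℕ} (he : e ≠ 0) {v : ℝ} (hv : |v| < 2 ^ (e + 1)) (k : ℕ) :
    Real.pi * k / e < ang e v k ∧ ang e v k < Real.pi * (k + 1) / e := by
  have hpos : (0 : ℝ) < 2 ^ (e + 1) := by positivity
  have ht : |v / 2 ^ (e + 1)| < 1 := by
    rw [abs_div, abs_of_pos hpos, div_lt_one hpos]; exact hv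
  have ht' := abs_lt.mp ht
  have h1 : 0 < Real.arccos (v / 2 ^ (e + 1)) := Real.arccos_pos.mpr ht'.2
  have h2 : Real.arccos (v / 2 ^ (e + 1)) < Real.pi := by
    have := Real.arccos_lt_pi.mpr ht'.1
    exact this
  have he' : (0 : ℝ) < e := by exact_mod_cast Nat.pos_of_ne_zero he
  unfold ang
  constructor
  · rw [div_lt_div_iff_of_pos_right he']
    split_ifs <;> linarith
  · rw [div_lt_div_iff_of_pos_right he']
    split_ifs <;> linarith

lemma chebRoot_inj {e : ℕ} (he : e ≠ 0) {v : ℝ} (hv : |v| < 2 ^ (e + 1)) {k l : ℕ}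
    (hk : k < e) (hl : l < e) (h : chebRoot e v k = chebRoot e v l) : k = l := by
  have he' : (0 : ℝ) < e := by exact_mod_cast Nat.pos_of_ne_zero he
  have key : ∀ a b : ℕ, a < b → b < e → chebRoot e v a ≠ chebRoot e v b := by
    intro a b hab hb
    obtain ⟨ha1, ha2⟩ := ang_bounds he hv a
    obtain ⟨hb1, hb2⟩ := ang_bounds he hv b
    have hab' : (a : ℝ) + 1 ≤ b := by exact_mod_cast hab
    have hpi := Real.pi_pos
    have h1 : ang e v a < ang e v b := by
      refine lt_trans ha2 (lt_of_le_of_lt ?_ hb1)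
      rw [div_le_div_iff_of_pos_right he']
      exact mul_le_mul_of_nonneg_left hab' hpi.le
    have h0 : 0 ≤ ang e v a := by
      refine le_trans ?_ ha1.le
      positivity
    have h2 : ang e v b ≤ Real.pi := by
      refine hb2.le.trans ?_
      rw [div_le_iff₀ he']
      have : (b : ℝ) + 1 ≤ e := by exact_mod_cast hb
      nlinarith
    have hanti := Real.strictAntiOn_cos (a := ang e v a) (b := ang e v b)
      ⟨h0, (h1.le.trans h2)⟩ ⟨h0.trans h1.le, h2⟩ h1
    unfold chebRoot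
    intro h3
    have : Real.cos (ang e v a) = Real.cos (ang e v b) := by linarith
    linarith
  rcases lt_trichotomy k l with h1 | h1 | h1
  · exact absurd h (key k l h1 hl)
  · exact h1
  · exact absurd h.symm (key l k h1 hk)

end Vale.Agent.Lib.P007
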