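import Vale.Agent.Lib.P007.Quartic

open Matrix Topology MeasureTheory Filter Set

namespace Vale.Agent.Lib.P007

/-- Multiplication table in `K`: the order `Z[α] + m θ Z[α]` is closed under products. -/
lemma order_mul_aux (m : ℕ) (a b c d a' b' c' d' : ℤ) :
    ((a : K4) + b * alpha4 + c * (m * theta4) + d * (m * (alpha4 * theta4))) *
      ((a' : K4) + b' * alpha4 + c' * (m * theta4) + d' * (m * (alpha4 * theta4))) =
    ((a * a' + 2 * b * b' + m ^ 2 * (2 * (c * c' + 2 * d * d') + 2 * (c * d' + c' * d)) : ℤ) : K4) +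
    ((a * b' + a' * b + m ^ 2 * ((c * c' + 2 * d * d') + 2 * (c * d' + c' * d)) : ℤ) : K4) * alpha4 +
    ((a * c' + 2 * b * d' + a' * c + 2 * b' * d : ℤ) : K4) * (m * theta4) +
    ((a * d' + b * c' + a' * d + b' * c : ℤ) : K4) * (m * (alpha4 * theta4)) := by
  have h1 := alpha4_sq
  have h2 := theta4_sq
  push_cast
  linear_combination
    ((b : K4) * b' + ((b : K4) * d' + b' * d) * (m * theta4) +
      (m : K4) ^ 2 * ((d : K4) * d' * (alpha4 + 2) + ((c : K4) * d' + c' * d))) * h1 +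
    ((m : K4) ^ 2 * (((c : K4) + d * alpha4) * ((c' : K4) + d' * alpha4))) * h2

/-- The order `O_m = Z[α] + m θ Z[α]` of `K = Q(θ)`, `α = θ^2 - 2 = √2`; it has `Z`-basis
`1, α, m θ, m α θ`. -/
noncomputable def orderO (m : ℕ) : Subring K4 where
  carrier := {x | ∃ a b c d : ℤ,
    x = (a : K4) + b * alpha4 + c * (m * theta4) + d * (m * (alpha4 * theta4))}
  mul_mem' := by
    rintro x y ⟨a, b, c, d, rfl⟩ ⟨a', b', c', d', rfl⟩
    exact ⟨_, _, _, _, order_mul_aux m a b c d a' b' c' d'⟩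
  one_mem' := ⟨1, 0, 0, 0, by simp⟩
  add_mem' := by
    rintro x y ⟨a, b, c, d, rfl⟩ ⟨a', b', c', d', rfl⟩
    exact ⟨a + a', b + b', c + c', d + d', by push_cast; ring⟩
  zero_mem' := ⟨0, 0, 0, 0, by simp⟩
  neg_mem' := by
    rintro x ⟨a, b, c, d, rfl⟩
    exact ⟨-a, -b, -c, -d, by push_cast; ring⟩

/-- The `Z`-basis `1, α, m θ, m α θ` of `O_m`. -/
noncomputable def orderBasis (m : ℕ) : Fin 4 → K4 :=
  ![1, alpha4, m * theta4, m * (alpha4 * theta4)]

/-- The matrix `(σ_j(b_i))` for the basis `b` of `O_m`. -/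
noncomputable def embMatrix (m : ℕ) : Matrix (Fin 4) (Fin 4) ℝ :=
  Matrix.of fun i j => sigma4 j (orderBasis m i)

lemma embMatrix_eq (m : ℕ) : embMatrix m =
    !![1, 1, 1, 1;
       s2, s2, -s2, -s2;
       m * R1, -(m * R1), m * R2, -(m * R2);
       m * (s2 * R1), -(m * (s2 * R1)), -(m * (s2 * R2)), m * (s2 * R2)] := by
  ext i j
  have hm : ∀ j, sigma4 j (m : K4) = (m : ℝ) := fun j => map_natCast _ _
  fin_cases i <;> fin_cases j <;>
    simp [embMatrix, orderBasis, map_mul, sigma4_theta, sigma4_alpha, hm, r4]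

lemma embMatrix_det (m : ℕ) : (embMatrix m).det = -16 * m ^ 2 * s2 ^ 2 * (R1 * R2) := by
  rw [embMatrix_eq, Matrix.det_succ_row_zero]
  simp only [Fin.sum_univ_succ, Matrix.det_succ_row_zero]
  simp [Matrix.submatrix, Fin.succAbove]
  ring

lemma embMatrix_det_sq (m : ℕ) : (embMatrix m).det ^ 2 = 2048 * (m : ℝ) ^ 4 := by
  rw [embMatrix_det, R1R2]
  have h := s2_sq
  have : (-16 * (m : ℝ) ^ 2 * s2 ^ 2 * s2) ^ 2 = 256 * (m : ℝ) ^ 4 * (s2 ^ 2) ^ 3 := by ring
  rw [this, h]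
  norm_num
  ring

lemma embMatrix_det_ne (m : ℕ) (hm : 0 < m) : (embMatrix m).det ≠ 0 := by
  intro h
  have h2 := embMatrix_det_sq m
  rw [h] at h2
  have : (0 : ℝ) < (m : ℝ) := by exact_mod_cast hm
  have h3 : (0 : ℝ) < 2048 * (m : ℝ) ^ 4 := by positivity
  rw [← h2] at h3
  norm_num at h3

lemma sum_orderBasis (m : ℕ) (c : Fin 4 → ℤ) :
    ∑ i, (c i : K4) * orderBasis m i =
      (c 0 : K4) + c 1 * alpha4 + c 2 * (m * theta4) + c 3 * (m * (alpha4 * theta4)) := by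
  simp [Fin.sum_univ_four, orderBasis]

/-- Applying `σ_j` to an integer combination of the basis gives the `j`-th entry of `c ᵥ* M`. -/
lemma sigma_sum (m : ℕ) (c : Fin 4 → ℤ) (j : Fin 4) :
    sigma4 j (∑ i, (c i : K4) * orderBasis m i) =
      ((fun i => (c i : ℝ)) ᵥ* embMatrix m) j := by
  rw [map_sum]
  simp [Matrix.vecMul, dotProduct, embMatrix, map_mul]

lemma orderBasis_isZBasis (m : ℕ) (hm : 0 < m) :
    IsZBasis (orderBasis m) (orderO m : Set K4) := by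
  constructor
  · intro x
    constructor
    · rintro ⟨a, b, c, d, rfl⟩
      refine ⟨![a, b, c, d], ?_⟩
      rw [sum_orderBasis]
      simp
    · rintro ⟨c, rfl⟩
      refine ⟨c 0, c 1, c 2, c 3, ?_⟩
      rw [sum_orderBasis]
  · intro c hc
    have h1 : (fun i => (c i : ℝ)) ᵥ* embMatrix m = 0 := by
      ext j
      rw [← sigma_sum, hc, map_zero]
      rfl
    have h2 : (fun i => (c i : ℝ)) = 0 :=
      Matrix.eq_zero_of_vecMul_eq_zero (embMatrix_det_ne m hm) h1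
    ext i
    have := congrFun h2 i
    simpa using this

/-- `O_m` contains `α`. -/
lemma alpha4_mem (m : ℕ) : alpha4 ∈ orderO m := ⟨0, 1, 0, 0, by simp⟩

/-- A fractional ideal: `O_m` itself. -/
lemma orderO_frac (m : ℕ) (hm : 0 < m) :
    IsFracIdeal 4 (orderO m) (orderO m).toAddSubgroup :=
  ⟨fun _ hr _ hx => (orderO m).mul_mem hr hx, orderBasis m, orderBasis_isZBasis m hm⟩

/-- The packet set of `O_m` is nonempty. -/
lemma packetSet_nonempty (m : ℕ) (hm : 0 < m) :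
    (packetSet sigma4 (orderO m)).Nonempty := by
  set D : ℝ := (embMatrix m).det with hD
  have hD0 : D ≠ 0 := embMatrix_det_ne m hm
  let d : Fin 4 → ℝ := ![D⁻¹, 1, 1, 1]
  have hd : ∀ j, d j ≠ 0 := by
    intro j
    fin_cases j <;> simp [d, hD0]
  have hdet : (embMatrix m * Matrix.diagonal d).det = 1 := by
    rw [Matrix.det_mul, Matrix.det_diagonal, Fin.prod_univ_four, ← hD]
    simp [d, hD0]
  let g : G 4 := ⟨embMatrix m * Matrix.diagonal d, hdet⟩
  refine ⟨mk g, g, rfl, (orderO m).toAddSubgroup, orderO_frac m hm, d, hd, ?_⟩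
  ext v
  constructor
  · rintro ⟨z, rfl⟩
    refine ⟨∑ i, (z i : K4) * orderBasis m i, ?_, fun j => ?_⟩
    · exact ((orderBasis_isZBasis m hm).1 _).mpr ⟨z, rfl⟩
    · rw [sigma_sum]
      change ((fun i => (z i : ℝ)) ᵥ* (embMatrix m * Matrix.diagonal d)) j = _
      rw [← Matrix.vecMul_vecMul, Matrix.vecMul_diagonal]
  · rintro ⟨y, hy, hv⟩
    obtain ⟨z, rfl⟩ := ((orderBasis_isZBasis m hm).1 y).mp hy
    refine ⟨z, ?_⟩
    ext j
    rw [hv j, sigma_sum]
    change ((fun i => (z i : ℝ)) ᵥ* (embMatrix m * Matrix.diagonal d)) j = _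
    rw [← Matrix.vecMul_vecMul, Matrix.vecMul_diagonal]

/-- The obstruction for `n = 4`. -/
theorem main_quartic :
    Module.finrank ℚ K4 = 4 ∧ Function.Bijective sigma4 ∧
    (∀ m : ℕ, 0 < m → alpha4 ∈ orderO m ∧
      IsZBasis (orderBasis m) (orderO m : Set K4) ∧
      ((Matrix.of fun i j => sigma4 j (orderBasis m i)).det) ^ 2 = 2048 * (m : ℝ) ^ 4 ∧
      (packetSet sigma4 (orderO m)).Nonempty) ∧
    ∃ f : C(X 4, ℝ), HasCompactSupport f ∧ (∀ x, 0 ≤ f x) ∧
      (∀ m₀ : Measure (X 4), IsProbabilityMeasure m₀ → IsRightInvariant m₀ →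
        0 < ∫ x, f x ∂m₀) ∧
      ∀ m : ℕ, 0 < m → ∀ μ : Measure (X 4), (∀ᵐ x ∂μ, x ∈ packetSet sigma4 (orderO m)) →
        ∫ x, f x ∂μ = 0 := by
  refine ⟨finrank_K4, sigma4_bijective, fun m hm =>
    ⟨alpha4_mem m, orderBasis_isZBasis m hm, embMatrix_det_sq m, packetSet_nonempty m hm⟩, ?_⟩
  have hτ : (![s2, s2, -s2, -s2] : Fin 4 → ℝ) 0 ∉ Set.range (Int.cast : ℤ → ℝ) := by
    have : Irrational s2 := irrational_sqrt_two
    rintro ⟨z, hz⟩
    apply this
    exact ⟨z, by simpa using hz⟩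
  obtain ⟨f, hfc, hf0, hfpos, hfμ⟩ := exists_test_function_packets _ hτ
  refine ⟨f, hfc, hf0, hfpos, fun m _ μ hμ => ?_⟩
  exact hfμ K4 sigma4 (orderO m) alpha4 (alpha4_mem m) sigma4_alpha μ hμ

end Vale.Agent.Lib.P007
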