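import Vale.Agent.Lib.P007.Space

open Matrix Topology MeasureTheory Filter Set

namespace Vale.Agent.Lib.P007

/-- The row lattice `Z^n g` of `g`. -/
def rowLattice {n : ℕ} (g : G n) : Set (Fin n → ℝ) :=
  Set.range (fun z : Fin n → ℤ => (fun i => (z i : ℝ)) ᵥ* g.1)

section Field

variable {K : Type*} [Field K]

/-- `b` is a `Z`-basis of the subset `A` of `K`: every element of `A` is a unique integer
combination of the `b i`, and integer combinations lie in `A`. -/
def IsZBasis {n : ℕ} (b : Fin n → K) (A : Set K) : Prop :=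
  (∀ x, x ∈ A ↔ ∃ c : Fin n → ℤ, x = ∑ i, (c i : K) * b i) ∧
    ∀ c : Fin n → ℤ, ∑ i, (c i : K) * b i = 0 → c = 0

/-- A fractional `O`-ideal in a degree `n` field: a rank `n` lattice `I` in `K` with `O I ⊆ I`.
(Properness and invertibility are not required.) -/
def IsFracIdeal (n : ℕ) (O : Subring K) (I : AddSubgroup K) : Prop :=
  (∀ r ∈ O, ∀ x ∈ I, r * x ∈ I) ∧ ∃ b : Fin n → K, IsZBasis b (I : Set K)

/-- The lattice `σ(I) · diag(d)` in `R^n`, where `σ = (σ_1, …, σ_n)`. -/
def latticeOf {n : ℕ} (σ : Fin n → K →+* ℝ) (I : AddSubgroup K) (d : Fin n → ℝ) :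
    Set (Fin n → ℝ) :=
  {v | ∃ y ∈ I, ∀ j, v j = σ j y * d j}

/-- All covolume-one lattices of the form `σ(I) · diag(d)`, with `I` a fractional `O`-ideal and `d`
an invertible diagonal. This contains every orbit `Λ_I w A_n` of the packet of `(O, σ)`,
since `Λ_I w a` is `σ(I)` times the invertible diagonal `covol^(-1/n) w a`. -/
def packetSet {n : ℕ} (σ : Fin n → K →+* ℝ) (O : Subring K) : Set (X n) :=
  {x | ∃ g : G n, mk g = x ∧ ∃ I : AddSubgroup K, IsFracIdeal n O I ∧
    ∃ d : Fin n → ℝ, (∀ j, d j ≠ 0) ∧ rowLattice g = latticeOf σ I d}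

lemma row_mem_rowLattice {n : ℕ} (g : G n) (i : Fin n) : g.1 i ∈ rowLattice g := by
  refine ⟨fun k => if k = i then 1 else 0, ?_⟩
  ext j
  simp [Matrix.vecMul, dotProduct, ite_mul]

/-- Packets of an order containing `α` consist of lattices stable under `diag(σ_j α)`. -/
lemma packetSet_subset_stableX {n : ℕ} (σ : Fin n → K →+* ℝ) (O : Subring K) {α : K}
    (hα : α ∈ O) : packetSet σ O ⊆ stableX (fun j => σ j α) := by
  rintro x ⟨g, rfl, I, ⟨hI, -⟩, d, -, hL⟩
  refine ⟨g, ?_, rfl⟩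
  -- each row of `g diag(τ)` lies in the row lattice
  have hrow : ∀ i, ∃ z : Fin n → ℤ, (fun r => (z r : ℝ)) ᵥ* g.1 = fun j => g.1 i j * σ j α := by
    intro i
    have h1 : g.1 i ∈ latticeOf σ I d := by
      rw [← hL]; exact row_mem_rowLattice g i
    obtain ⟨y, hy, hyv⟩ := h1
    have h2 : (fun j => g.1 i j * σ j α) ∈ latticeOf σ I d := by
      refine ⟨α * y, hI α hα y hy, fun j => ?_⟩
      change g.1 i j * σ j α = σ j (α * y) * d j
      rw [hyv j, map_mul]; ring
    rw [← hL] at h2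
    exact h2
  choose z hz using hrow
  have hZ : g.1 * Matrix.diagonal (fun j => σ j α) =
      (Matrix.of fun r s => ((z r s : ℤ) : ℝ)) * g.1 := by
    ext i j
    have := congrFun (hz i) j
    simp only [Matrix.mul_diagonal]
    rw [← this]
    simp [Matrix.mul_apply, Matrix.vecMul, dotProduct]
  intro i j
  have hinv : g.1 * (g⁻¹ : G n).1 = 1 := by
    rw [← Matrix.SpecialLinearGroup.coe_mul, mul_inv_cancel, Matrix.SpecialLinearGroup.coe_one]
  have hc : conjD (fun j => σ j α) g = Matrix.of fun r s => ((z r s : ℤ) : ℝ) := by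
    unfold conjD
    rw [hZ, Matrix.mul_assoc, hinv, Matrix.mul_one]
  rw [hc]
  exact ⟨z i j, rfl⟩

end Field

/-- Main consequence for one fixed vector of conjugates `τ`. -/
theorem exists_test_function_packets {n : ℕ} (τ : Fin n → ℝ) {j : Fin n}
    (hj : τ j ∉ Set.range (Int.cast : ℤ → ℝ)) :
    ∃ f : C(X n, ℝ), HasCompactSupport f ∧ (∀ x, 0 ≤ f x) ∧
      (∀ m : Measure (X n), IsProbabilityMeasure m → IsRightInvariant m → 0 < ∫ x, f x ∂m) ∧
      ∀ (K : Type) [Field K] (σ : Fin n → K →+* ℝ) (O : Subring K) (α : K), α ∈ O →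
        (∀ j, σ j α = τ j) → ∀ μ : Measure (X n), (∀ᵐ x ∂μ, x ∈ packetSet σ O) →
          ∫ x, f x ∂μ = 0 := by
  obtain ⟨f, hfc, hf0, hfS, hfpos⟩ := exists_test_function τ hj
  refine ⟨f, hfc, hf0, hfpos, ?_⟩
  intro K _ σ O α hα hτ μ hμ
  have hsub : packetSet σ O ⊆ stableX τ := by
    have := packetSet_subset_stableX σ O hα
    have hτ' : (fun j => σ j α) = τ := funext hτ
    rwa [hτ'] at this
  refine integral_eq_zero_of_ae ?_
  filter_upwards [hμ] with x hx
  exact hfS x (hsub hx)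

end Vale.Agent.Lib.P007
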