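import Vale.Agent.Lib.P007.Packet

open Matrix Topology MeasureTheory Filter Set

namespace Vale.Agent.Lib.P007

open Polynomial in
/-- `x^4 - 4 x^2 + 2` over `Z`. -/
noncomputable def q4 : ℤ[X] := Polynomial.X ^ 4 + (- (C 4 * Polynomial.X ^ 2) + C 2)

open Polynomial in
/-- `x^4 - 4 x^2 + 2` over `Q`; its roots are `±√(2 ± √2)`. -/
noncomputable def p4 : ℚ[X] := Polynomial.X ^ 4 + (- (C 4 * Polynomial.X ^ 2) + C 2)

open Polynomial in
lemma q4_map : q4.map (Int.castRingHom ℚ) = p4 := by
  simp only [q4, p4, Polynomial.map_add, Polynomial.map_pow, Polynomial.map_X, Polynomial.map_neg,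
    Polynomial.map_mul, Polynomial.map_C]
  simp

open Polynomial in
lemma q4_natDegree : q4.natDegree = 4 := by
  unfold q4
  compute_degree!

open Polynomial in
lemma q4_monic : q4.Monic := by
  unfold q4
  monicity!

open Polynomial in
lemma q4_coeff (n : ℕ) : q4.coeff n = if n = 4 then 1 else if n = 2 then -4 else if n = 0 then 2 else 0 := by
  unfold q4
  simp only [coeff_add, coeff_neg, coeff_C_mul, coeff_X_pow, coeff_C]
  rcases eq_or_ne n 4 with rfl | h4
  · simp
  rcases eq_or_ne n 2 with rfl | h2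
  · simp
  rcases eq_or_ne n 0 with rfl | h0
  · simp
  simp [h4, h2, h0]

open Polynomial in
lemma q4_irreducible : Irreducible q4 := by
  have hP : (Ideal.span {(2 : ℤ)}).IsPrime :=
    (Ideal.span_singleton_prime two_ne_zero).mpr Int.prime_two
  have hmem : ∀ z : ℤ, z ∈ Ideal.span {(2 : ℤ)} ↔ (2 : ℤ) ∣ z := fun z => Ideal.mem_span_singleton
  refine irreducible_of_eisenstein_criterion hP ?_ ?_ ?_ ?_ q4_monic.isPrimitive
  · rw [q4_monic.leadingCoeff, hmem]
    norm_num
  · intro n hn
    have hd : q4.degree = (4 : ℕ) := by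
      rw [degree_eq_natDegree q4_monic.ne_zero, q4_natDegree]
    rw [hd] at hn
    have hn' : n < 4 := by exact_mod_cast hn
    rw [q4_coeff, hmem]
    interval_cases n <;> norm_num
  · rw [degree_eq_natDegree q4_monic.ne_zero, q4_natDegree]
    norm_num
  · rw [q4_coeff]
    simp only [Ideal.span_singleton_pow]
    rw [Ideal.mem_span_singleton]
    norm_num

lemma p4_irreducible : Irreducible p4 := by
  rw [← q4_map]
  exact (Polynomial.IsPrimitive.Int.irreducible_iff_irreducible_map_cast q4_monic.isPrimitive).mp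
    q4_irreducible

instance : Fact (Irreducible p4) := ⟨p4_irreducible⟩

lemma p4_ne_zero : p4 ≠ 0 := p4_irreducible.ne_zero

lemma p4_natDegree : p4.natDegree = 4 := by
  rw [← q4_map, q4_monic.natDegree_map, q4_natDegree]

/-- The totally real quartic field `K = Q(√(2+√2))`. -/
abbrev K4 : Type := AdjoinRoot p4

/-- The generator `θ` of `K`, a root of `x^4 - 4x^2 + 2`. -/
noncomputable def theta4 : K4 := AdjoinRoot.root p4

/-- The element `α = θ^2 - 2` of `K`, which satisfies `α^2 = 2`. -/
noncomputable def alpha4 : K4 := theta4 ^ 2 - 2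

lemma p4_eval₂ {S : Type*} [CommRing S] (i : ℚ →+* S) (y : S) :
    p4.eval₂ i y = y ^ 4 - 4 * y ^ 2 + 2 := by
  simp only [p4, Polynomial.eval₂_add, Polynomial.eval₂_neg, Polynomial.eval₂_mul,
    Polynomial.eval₂_pow, Polynomial.eval₂_X, Polynomial.eval₂_C]
  simp only [map_ofNat]
  ring

lemma theta4_eq : theta4 ^ 4 - 4 * theta4 ^ 2 + 2 = 0 := by
  have h := AdjoinRoot.eval₂_root p4
  rw [p4_eval₂] at h
  exact h

lemma alpha4_sq : alpha4 ^ 2 = 2 := by
  unfold alpha4
  linear_combination theta4_eq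

lemma theta4_sq : theta4 ^ 2 = alpha4 + 2 := by
  unfold alpha4; ring

lemma finrank_K4 : Module.finrank ℚ K4 = 4 := by
  have := (AdjoinRoot.powerBasis p4_ne_zero).finrank
  rw [this, AdjoinRoot.powerBasis_dim, p4_natDegree]

noncomputable instance : NumberField K4 where
  to_charZero := charZero_of_injective_algebraMap (algebraMap ℚ K4).injective
  to_finiteDimensional := (AdjoinRoot.powerBasis p4_ne_zero).finite

/-! Real roots. -/

/-- `√2`. -/
noncomputable def s2 : ℝ := √2
/-- `√(2+√2)`. -/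
noncomputable def R1 : ℝ := √(2 + √2)
/-- `√(2-√2)`. -/
noncomputable def R2 : ℝ := √(2 - √2)

lemma s2_sq : s2 ^ 2 = 2 := by unfold s2; simp
lemma s2_pos : 0 < s2 := by unfold s2; positivity
lemma s2_lt : s2 < 2 := by
  have := s2_sq; have := s2_pos; nlinarith
lemma R1_sq : R1 ^ 2 = 2 + s2 := by
  unfold R1 s2; exact Real.sq_sqrt (by positivity)
lemma R2_sq : R2 ^ 2 = 2 - s2 := by
  unfold R2 s2
  have : (0:ℝ) ≤ 2 - √2 := by
    have := s2_lt; unfold s2 at this; linarith
  exact Real.sq_sqrt this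
lemma R1_pos : 0 < R1 := by unfold R1; positivity
lemma R2_pos : 0 < R2 := by
  unfold R2
  have := s2_lt; unfold s2 at this
  exact Real.sqrt_pos.mpr (by linarith)
lemma R1R2 : R1 * R2 = s2 := by
  have h : (R1 * R2) ^ 2 = s2 ^ 2 := by
    rw [mul_pow, R1_sq, R2_sq, s2_sq]
    have := s2_sq; nlinarith
  have h1 := R1_pos; have h2 := R2_pos; have h3 := s2_pos
  exact (pow_left_inj₀ (by positivity) h3.le two_ne_zero).mp h

/-- The four real roots of `x^4 - 4x^2 + 2`. -/
noncomputable def r4 : Fin 4 → ℝ := ![R1, -R1, R2, -R2]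

lemma r4_sq_sub (j : Fin 4) : (r4 j) ^ 2 - 2 = (![s2, s2, -s2, -s2] : Fin 4 → ℝ) j := by
  fin_cases j
  · simp [r4, R1_sq]
  · simp [r4, R1_sq]
  · simp [r4, R2_sq]
  · simp [r4, R2_sq]

lemma r4_root (j : Fin 4) : p4.eval₂ (algebraMap ℚ ℝ) (r4 j) = 0 := by
  rw [p4_eval₂]
  have h := r4_sq_sub j
  have h2 : ((r4 j) ^ 2 - 2) ^ 2 = 2 := by
    rw [h]
    fin_cases j <;> simp [s2_sq]
  linear_combination h2

/-- The four real embeddings of `K`. -/
noncomputable def sigma4 (j : Fin 4) : K4 →+* ℝ :=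
  AdjoinRoot.lift (algebraMap ℚ ℝ) (r4 j) (r4_root j)

lemma sigma4_theta (j : Fin 4) : sigma4 j theta4 = r4 j := by
  unfold sigma4 theta4
  exact AdjoinRoot.lift_root _

lemma sigma4_alpha (j : Fin 4) : sigma4 j alpha4 = (![s2, s2, -s2, -s2] : Fin 4 → ℝ) j := by
  unfold alpha4
  rw [map_sub, map_pow, sigma4_theta, map_ofNat]
  exact r4_sq_sub j


lemma R2_lt_R1 : R2 < R1 := by
  have h1 := R1_pos
  have h2 := R2_pos
  have h3 := s2_pos
  by_contra h
  push Not at h
  have := pow_le_pow_left₀ h1.le h 2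
  rw [R1_sq, R2_sq] at this
  linarith

lemma r4_injective : Function.Injective r4 := by
  have h1 := R1_pos
  have h2 := R2_pos
  have h3 := R2_lt_R1
  have key : ∀ a b : Fin 4, a ≠ b → r4 a ≠ r4 b := by
    intro a b h
    fin_cases a <;> fin_cases b <;> first
      | exact absurd rfl h
      | (intro hh; simp [r4] at hh; linarith)
  intro a b hab
  by_contra h
  exact key a b h hab

lemma sigma4_injective : Function.Injective sigma4 := by
  intro a b hab
  apply r4_injective
  rw [← sigma4_theta, ← sigma4_theta, hab]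

lemma sigma4_surjective : Function.Surjective sigma4 := by
  intro φ
  set y := φ theta4 with hy
  have hy4 : y ^ 4 - 4 * y ^ 2 + 2 = 0 := by
    have h0 := congrArg φ theta4_eq
    have h4 : φ (4 : K4) = 4 := map_ofNat φ 4
    have h2 : φ (2 : K4) = 2 := map_ofNat φ 2
    simp only [map_add, map_sub, map_mul, map_pow, h4, h2, map_zero] at h0
    exact h0
  have hfac : (y ^ 2 - (2 + s2)) * (y ^ 2 - (2 - s2)) = 0 := by
    have := s2_sq
    linear_combination hy4 - this
  have key : ∃ j, y = r4 j := by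
    rcases mul_eq_zero.mp hfac with h | h
    · have : (y - R1) * (y + R1) = 0 := by
        have := R1_sq; linear_combination h - this
      rcases mul_eq_zero.mp this with h' | h'
      · exact ⟨0, by simp [r4]; linarith⟩
      · exact ⟨1, by simp [r4]; linarith⟩
    · have : (y - R2) * (y + R2) = 0 := by
        have := R2_sq; linear_combination h - this
      rcases mul_eq_zero.mp this with h' | h'
      · exact ⟨2, by simp [r4]; linarith⟩
      · exact ⟨3, by simp [r4]; linarith⟩
  obtain ⟨j, hj⟩ := key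
  refine ⟨j, ?_⟩
  apply AdjoinRoot.ringHom_ext
  · exact RingHom.ext_rat _ _
  · change sigma4 j theta4 = φ theta4
    rw [sigma4_theta, ← hy, hj]

lemma sigma4_bijective : Function.Bijective sigma4 := ⟨sigma4_injective, sigma4_surjective⟩

end Vale.Agent.Lib.P007
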