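import Mathlib

open Matrix Topology MeasureTheory Filter Set

namespace Vale.Agent.Lib.P007

/-- `SL_n(R)`. -/
abbrev G (n : ℕ) := Matrix.SpecialLinearGroup (Fin n) ℝ

/-- The subgroup `SL_n(Z)` of `SL_n(R)`. -/
def Gamma (n : ℕ) : Subgroup (G n) :=
  (Matrix.SpecialLinearGroup.map (Int.castRingHom ℝ)).range

/-- The space `X_n = SL_n(Z) \ SL_n(R)`: quotient of `SL_n(R)` by left multiplication by
`SL_n(Z)`. -/
def X (n : ℕ) : Type := Quotient (MulAction.orbitRel (Gamma n) (G n))

/-- The class `SL_n(Z) g` in `X_n`. -/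
def mk {n : ℕ} (g : G n) : X n := Quotient.mk (MulAction.orbitRel (Gamma n) (G n)) g

instance (n : ℕ) : TopologicalSpace (X n) :=
  inferInstanceAs (TopologicalSpace (Quotient (MulAction.orbitRel (Gamma n) (G n))))

instance (n : ℕ) : MeasurableSpace (X n) := borel (X n)

instance (n : ℕ) : BorelSpace (X n) := ⟨rfl⟩

lemma mk_eq_iff {n : ℕ} {g h : G n} : mk g = mk h ↔ ∃ γ : Gamma n, γ.1 * h = g := by
  constructor
  · intro h1
    obtain ⟨γ, hγ⟩ := Quotient.exact h1
    exact ⟨γ, hγ⟩
  · rintro ⟨γ, hγ⟩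
    exact Quotient.sound ⟨γ, hγ⟩

instance (n : ℕ) : T2Space (G n) :=
  (Matrix.SpecialLinearGroup.isClosedEmbedding_val (n := Fin n) (R := ℝ)).isEmbedding.t2Space

instance (n : ℕ) : LocallyCompactSpace (G n) := by
  have : LocallyCompactSpace (Matrix (Fin n) (Fin n) ℝ) :=
    inferInstanceAs (LocallyCompactSpace (Fin n → Fin n → ℝ))
  exact (Matrix.SpecialLinearGroup.isClosedEmbedding_val (n := Fin n) (R := ℝ)).locallyCompactSpace

instance (n : ℕ) : SecondCountableTopology (G n) := by
  have : SecondCountableTopology (Matrix (Fin n) (Fin n) ℝ) :=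
    inferInstanceAs (SecondCountableTopology (Fin n → Fin n → ℝ))
  exact (Matrix.SpecialLinearGroup.isClosedEmbedding_val (n := Fin n)
    (R := ℝ)).isEmbedding.isInducing.secondCountableTopology

lemma isClosedEmbedding_map (n : ℕ) :
    IsClosedEmbedding (Matrix.SpecialLinearGroup.map (n := Fin n) (Int.castRingHom ℝ)) :=
  Topology.IsClosedEmbedding.specialLinearGroup_map Int.isClosedEmbedding_coe_real

instance (n : ℕ) : DiscreteTopology (Gamma n) := by
  have h := (isClosedEmbedding_map n).isEmbedding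
  have e := h.toHomeomorph
  have : DiscreteTopology (Set.range (Matrix.SpecialLinearGroup.map (n := Fin n)
      (Int.castRingHom ℝ))) := e.symm.isEmbedding.discreteTopology
  exact this

instance (n : ℕ) : ProperlyDiscontinuousSMul (Gamma n) (G n) :=
  Subgroup.properlyDiscontinuousSMul_of_tendsto_cofinite _
    (Subgroup.tendsto_coe_cofinite_of_discrete (Gamma n) (isDiscrete_iff_discreteTopology.mpr (inferInstanceAs (DiscreteTopology (Gamma n)))))

instance (n : ℕ) : T2Space (X n) :=
  inferInstanceAs (T2Space (Quotient (MulAction.orbitRel (Gamma n) (G n))))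

lemma isOpenQuotientMap_mk (n : ℕ) : IsOpenQuotientMap (mk : G n → X n) :=
  MulAction.isOpenQuotientMap_quotientMk

instance (n : ℕ) : LocallyCompactSpace (X n) :=
  (isOpenQuotientMap_mk n).locallyCompactSpace


/-- Right translation by `h` on `X_n`. -/
def rtrans {n : ℕ} (h : G n) : X n → X n :=
  Quotient.map (fun g : G n => g * h) (by
    rintro a b ⟨γ, hγ⟩
    refine ⟨γ, ?_⟩
    change γ.1 * (b * h) = a * h
    have hγ' : γ.1 * b = a := hγ
    rw [← mul_assoc, hγ'])

@[simp] lemma rtrans_mk {n : ℕ} (h g : G n) : rtrans h (mk g) = mk (g * h) := rfl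

lemma continuous_mk (n : ℕ) : Continuous (mk : G n → X n) := (isOpenQuotientMap_mk n).continuous

lemma continuous_rtrans {n : ℕ} (h : G n) : Continuous (rtrans h : X n → X n) := by
  refine (isOpenQuotientMap_mk n).isQuotientMap.continuous_iff.mpr ?_
  have : (rtrans h ∘ mk : G n → X n) = mk ∘ (fun g : G n => g * h) := rfl
  rw [this]
  exact (continuous_mk n).comp (continuous_mul_const h)

lemma mk_surjective (n : ℕ) : Function.Surjective (mk : G n → X n) :=
  (isOpenQuotientMap_mk n).surjective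

/-- `m` is invariant under all right translations by `SL_n(R)`. -/
def IsRightInvariant {n : ℕ} (m : Measure (X n)) : Prop :=
  ∀ h : G n, Measure.map (rtrans h) m = m

lemma rtrans_rtrans {n : ℕ} (h k : G n) (x : X n) : rtrans h (rtrans k x) = rtrans (k * h) x := by
  obtain ⟨g, rfl⟩ := mk_surjective n x
  simp [mul_assoc]

/-- An invariant probability measure charges every nonempty open set. -/
lemma pos_of_isOpen {n : ℕ} (m : Measure (X n)) [IsProbabilityMeasure m]
    (hm : IsRightInvariant m) {V : Set (X n)} (hV : IsOpen V) (hne : V.Nonempty) : m V ≠ 0 := by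
  intro h0
  obtain ⟨x0, hx0⟩ := hne
  obtain ⟨w, rfl⟩ := mk_surjective n x0
  -- the preimage of `V` in `G`
  have hW : IsOpen ((mk : G n → X n) ⁻¹' V) := hV.preimage (continuous_mk n)
  -- countable dense subset of `G`
  obtain ⟨D, hDc, hD⟩ := TopologicalSpace.exists_countable_dense (G n)
  -- each translate is null
  have hnull : ∀ k : G n, m (rtrans k ⁻¹' V) = 0 := by
    intro k
    have hmeas : Measurable (rtrans k : X n → X n) := (continuous_rtrans k).measurable
    have h1 : Measure.map (rtrans k) m V = m V := by rw [hm k]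
    rw [Measure.map_apply hmeas hV.measurableSet] at h1
    rw [h1, h0]
  -- the translates cover
  have hcover : (Set.univ : Set (X n)) ⊆ ⋃ k ∈ D, rtrans k ⁻¹' V := by
    intro x _
    obtain ⟨y, rfl⟩ := mk_surjective n x
    -- want `k ∈ D` with `y * k ∈ W`
    have hop : IsOpen ((fun k : G n => y * k) ⁻¹' ((mk : G n → X n) ⁻¹' V)) :=
      hW.preimage (continuous_const_mul y)
    have hne' : ((fun k : G n => y * k) ⁻¹' ((mk : G n → X n) ⁻¹' V)).Nonempty :=
      ⟨y⁻¹ * w, by simpa using hx0⟩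
    obtain ⟨k, hk1, hk2⟩ := hD.inter_open_nonempty _ hop hne'
    refine Set.mem_biUnion hk2 ?_
    simpa using hk1
  have : m Set.univ = 0 := by
    refine measure_mono_null hcover ?_
    exact (measure_biUnion_null_iff hDc).mpr fun k _ => hnull k
  simp at this

/-- The diagonal conjugation test matrix `g diag(τ) g⁻¹`. -/
noncomputable def conjD {n : ℕ} (τ : Fin n → ℝ) (g : G n) : Matrix (Fin n) (Fin n) ℝ :=
  g.1 * Matrix.diagonal τ * (g⁻¹ : G n).1

/-- `g` such that `g diag(τ) g⁻¹` is an integer matrix; equivalently the row lattice `Z^n g` is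
stable under `diag(τ)`. -/
def stableG {n : ℕ} (τ : Fin n → ℝ) : Set (G n) :=
  {g | ∀ i j, conjD τ g i j ∈ Set.range (Int.cast : ℤ → ℝ)}

lemma isClosed_stableG {n : ℕ} (τ : Fin n → ℝ) : IsClosed (stableG τ) := by
  have hZ : IsClosed (Set.range (Int.cast : ℤ → ℝ)) := Int.isClosedEmbedding_coe_real.isClosed_range
  have h : stableG τ = ⋂ i, ⋂ j, (fun g : G n => conjD τ g i j) ⁻¹' (Set.range (Int.cast : ℤ → ℝ)) := by
    ext g; simp [stableG]
  rw [h]
  refine isClosed_iInter fun i => isClosed_iInter fun j => hZ.preimage ?_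
  have hc : Continuous (fun g : G n => conjD τ g) := by
    unfold conjD
    have h1 : Continuous (fun g : G n => g.1) := continuous_subtype_val
    have h2 : Continuous (fun g : G n => (g⁻¹ : G n).1) := continuous_subtype_val.comp continuous_inv
    exact (h1.mul continuous_const).mul h2
  exact (continuous_apply_apply i j).comp hc

/-- Matrices that are integer-valued, closed under products. -/
lemma int_mul {n : ℕ} {A B : Matrix (Fin n) (Fin n) ℝ}
    (hA : ∀ i j, A i j ∈ Set.range (Int.cast : ℤ → ℝ))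
    (hB : ∀ i j, B i j ∈ Set.range (Int.cast : ℤ → ℝ)) :
    ∀ i j, (A * B) i j ∈ Set.range (Int.cast : ℤ → ℝ) := by
  intro i j
  rw [Matrix.mul_apply]
  choose a ha using hA
  choose b hb using hB
  refine ⟨∑ k, a i k * b k j, ?_⟩
  push_cast
  exact Finset.sum_congr rfl fun k _ => by rw [ha, hb]

lemma gamma_int {n : ℕ} (γ : Gamma n) :
    ∀ i j, γ.1.1 i j ∈ Set.range (Int.cast : ℤ → ℝ) := by
  obtain ⟨γ, z, rfl⟩ := γ
  intro i j
  exact ⟨z.1 i j, by simp⟩

lemma gamma_inv_int {n : ℕ} (γ : Gamma n) :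
    ∀ i j, (γ.1⁻¹ : G n).1 i j ∈ Set.range (Int.cast : ℤ → ℝ) := by
  have := gamma_int (γ⁻¹)
  simpa using this

lemma conjD_gamma {n : ℕ} (τ : Fin n → ℝ) (γ : Gamma n) (g : G n) :
    conjD τ (γ.1 * g) = γ.1.1 * conjD τ g * (γ.1⁻¹ : G n).1 := by
  unfold conjD
  simp only [_root_.mul_inv_rev, Matrix.SpecialLinearGroup.coe_mul, Matrix.mul_assoc]

lemma stableG_gamma {n : ℕ} (τ : Fin n → ℝ) (γ : Gamma n) {g : G n} (hg : g ∈ stableG τ) :
    γ.1 * g ∈ stableG τ := by
  intro i j
  rw [conjD_gamma]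
  exact int_mul (int_mul (gamma_int γ) hg) (gamma_inv_int γ) i j

/-- The closed set of lattices stable under `diag(τ)`. -/
def stableX {n : ℕ} (τ : Fin n → ℝ) : Set (X n) := mk '' stableG τ

lemma mk_preimage_stableX {n : ℕ} (τ : Fin n → ℝ) :
    (mk : G n → X n) ⁻¹' stableX τ = stableG τ := by
  ext g
  constructor
  · rintro ⟨h, hh, hgh⟩
    obtain ⟨γ, hγ⟩ := mk_eq_iff.mp hgh
    have h2 := stableG_gamma τ γ⁻¹ hh
    rw [← hγ] at h2
    simpa using h2
  · intro hg
    exact ⟨g, hg, rfl⟩

lemma isClosed_stableX {n : ℕ} (τ : Fin n → ℝ) : IsClosed (stableX τ) := by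
  rw [← (isOpenQuotientMap_mk n).isQuotientMap.isClosed_preimage, mk_preimage_stableX]
  exact isClosed_stableG τ

lemma one_not_stable {n : ℕ} (τ : Fin n → ℝ) {j : Fin n}
    (hj : τ j ∉ Set.range (Int.cast : ℤ → ℝ)) : mk (1 : G n) ∉ stableX τ := by
  intro h
  have h1 : (1 : G n) ∈ stableG τ := by
    rw [← mk_preimage_stableX]; exact h
  have h2 := h1 j j
  simp only [conjD, inv_one, Matrix.SpecialLinearGroup.coe_one, Matrix.one_mul, Matrix.mul_one,
    Matrix.diagonal_apply_eq] at h2
  exact hj h2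

/-- The key test function: a compactly supported continuous nonnegative `f` vanishing on the
`diag(τ)`-stable lattices with positive integral against every invariant probability measure. -/
theorem exists_test_function {n : ℕ} (τ : Fin n → ℝ) {j : Fin n}
    (hj : τ j ∉ Set.range (Int.cast : ℤ → ℝ)) :
    ∃ f : C(X n, ℝ), HasCompactSupport f ∧ (∀ x, 0 ≤ f x) ∧ (∀ x ∈ stableX τ, f x = 0) ∧
      ∀ m : Measure (X n), IsProbabilityMeasure m → IsRightInvariant m → 0 < ∫ x, f x ∂m := by
  have hdisj : Disjoint ({mk (1 : G n)} : Set (X n)) (stableX τ) := by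
    rw [Set.disjoint_singleton_left]
    exact one_not_stable τ hj
  obtain ⟨f, hf1, hf0, hfc, hfr⟩ := exists_continuous_one_zero_of_isCompact
    (isCompact_singleton (x := mk (1 : G n))) (isClosed_stableX τ) hdisj
  refine ⟨f, hfc, fun x => (hfr x).1, fun x hx => hf0 hx, ?_⟩
  intro m hm hinv
  haveI : Measure.IsOpenPosMeasure m := ⟨fun U hU hne => pos_of_isOpen m hinv hU hne⟩
  have h1 : f (mk (1 : G n)) = 1 := hf1 rfl
  exact f.continuous.integral_pos_of_hasCompactSupport_nonneg_nonzero hfc (fun x => (hfr x).1)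
    (x := mk (1 : G n)) (by rw [h1]; exact one_ne_zero)

end Vale.Agent.Lib.P007
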