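import Vale.Agent.Lib.P007.Packet

open Matrix Topology MeasureTheory Filter Set

namespace Vale.Agent.Lib.P007

open Polynomial

section

variable {K : Type} [Field K] [NumberField K]

/-- If `σ` lists `[K:Q]` distinct real embeddings then every complex embedding is real. -/
lemma all_complex_embeddings {n : ℕ} (hK : Module.finrank ℚ K = n) (σ : Fin n → K →+* ℝ)
    (hσ : Function.Injective σ) (φ : K →+* ℂ) : ∃ j, φ = Complex.ofRealHom.comp (σ j) := by
  let F : Fin n → (K →+* ℂ) := fun j => Complex.ofRealHom.comp (σ j)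
  have hF : Function.Injective F := by
    intro a b hab
    apply hσ
    ext x
    have := congrArg (fun ψ : K →+* ℂ => ψ x) hab
    simpa [F] using this
  have hcard : Fintype.card (Fin n) = Fintype.card (K →+* ℂ) := by
    rw [NumberField.Embeddings.card K ℂ, hK, Fintype.card_fin]
  obtain ⟨j, hj⟩ := ((Fintype.bijective_iff_injective_and_card F).mpr ⟨hF, hcard⟩).2 φ
  exact ⟨j, hj.symm⟩

omit [NumberField K] in
/-- Elements of a subring with a finite `Z`-basis are integral. -/
lemma integral_of_basis {n : ℕ} {O : Subring K} {b : Fin n → K} (hb : IsZBasis b (O : Set K))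
    {α : K} (hα : α ∈ O) : IsIntegral ℤ α := by
  classical
  refine IsIntegral.of_mem_of_fg (subalgebraOfSubring O) ?_ α (mem_subalgebraOfSubring.mpr hα)
  refine ⟨Finset.univ.image b, ?_⟩
  apply le_antisymm
  · rw [Submodule.span_le]
    intro x hx
    simp only [Finset.coe_image, Finset.coe_univ, Set.image_univ, Set.mem_range] at hx
    obtain ⟨i, rfl⟩ := hx
    change b i ∈ subalgebraOfSubring O
    rw [mem_subalgebraOfSubring]
    refine (hb.1 (b i)).mpr ⟨fun j => if j = i then 1 else 0, ?_⟩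
    simp [ite_mul]
  · intro x hx
    have hx' : x ∈ O := mem_subalgebraOfSubring.mp hx
    obtain ⟨c, rfl⟩ := (hb.1 x).mp hx'
    refine Submodule.sum_mem _ fun i _ => ?_
    rw [← zsmul_eq_mul]
    refine Submodule.smul_mem _ _ (Submodule.subset_span ?_)
    simp

end

/-- Northcott, uniformly in the field: conjugates of integral elements of bounded house in
totally real fields of degree `n` lie in one finite set. -/
lemma finite_conjugates (n : ℕ) (H : ℝ) : ∃ T : Set ℝ, T.Finite ∧
    ∀ (K : Type) [Field K] [NumberField K], Module.finrank ℚ K = n →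
      ∀ σ : Fin n → K →+* ℝ, Function.Injective σ → ∀ α : K, IsIntegral ℤ α →
        (∀ j, |σ j α| ≤ H) → ∀ j, σ j α ∈ T := by
  classical
  set B : ℝ := max H 1 ^ n * (n.choose (n / 2) : ℝ) with hB
  set U : Set ℤ := {z | |(z : ℝ)| ≤ B} with hU
  have hUfin : U.Finite := by
    refine (Set.finite_Icc (-⌈B⌉) ⌈B⌉).subset ?_
    intro z hz
    have h1 := abs_le.mp (show |(z : ℝ)| ≤ B from hz)
    have h2 := Int.le_ceil B
    constructor
    · have : ((-⌈B⌉ : ℤ) : ℝ) ≤ z := by push_cast; linarith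
      exact_mod_cast this
    · have : (z : ℝ) ≤ ⌈B⌉ := by linarith
      exact_mod_cast this
  refine ⟨_, bUnion_roots_finite (Int.castRingHom ℝ) n hUfin, ?_⟩
  intro K _ _ hK σ hσ α hα hH j
  have hmon : (minpoly ℤ α).Monic := minpoly.monic hα
  have hmap : minpoly ℚ α = (minpoly ℤ α).map (algebraMap ℤ ℚ) :=
    minpoly.isIntegrallyClosed_eq_field_fractions' ℚ hα
  have hdeg : (minpoly ℤ α).natDegree ≤ n := by
    have h1 := minpoly.natDegree_le (A := ℚ) α
    rw [hK, hmap, hmon.natDegree_map] at h1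
    exact h1
  have hcoeff : ∀ i, (minpoly ℤ α).coeff i ∈ U := by
    intro i
    have h1 : ∀ φ : K →+* ℂ, ‖φ α‖ ≤ H := by
      intro φ
      obtain ⟨j', rfl⟩ := all_complex_embeddings hK σ hσ φ
      have := hH j'
      simpa using this
    have h2 := NumberField.Embeddings.coeff_bdd_of_norm_le (A := ℂ) h1 i
    rw [hmap, coeff_map, hK] at h2
    change |((minpoly ℤ α).coeff i : ℝ)| ≤ B
    rw [← Int.norm_eq_abs, hB]
    simpa using h2
  simp only [Set.mem_iUnion]
  refine ⟨minpoly ℤ α, ⟨hdeg, hcoeff⟩, ?_⟩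
  have hne : (minpoly ℤ α).map (Int.castRingHom ℝ) ≠ 0 := (hmon.map _).ne_zero
  simp only [Finset.mem_coe, Multiset.mem_toFinset]
  rw [mem_roots hne, IsRoot, eval_map]
  have h0 := congrArg (σ j) (minpoly.aeval ℤ α)
  rw [aeval_def, hom_eval₂, map_zero] at h0
  rw [← h0]
  congr 1
  exact Subsingleton.elim _ _

/-- Test function vanishing on a closed set not containing the base point. -/
lemma exists_test_function_closed {n : ℕ} {C : Set (X n)} (hC : IsClosed C)
    (h1 : mk (1 : G n) ∉ C) :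
    ∃ f : C(X n, ℝ), HasCompactSupport f ∧ (∀ x, 0 ≤ f x) ∧ (∀ x ∈ C, f x = 0) ∧
      ∀ m : Measure (X n), IsProbabilityMeasure m → IsRightInvariant m → 0 < ∫ x, f x ∂m := by
  have hdisj : Disjoint ({mk (1 : G n)} : Set (X n)) C := by
    rw [Set.disjoint_singleton_left]
    exact h1
  obtain ⟨f, hf1, hf0, hfc, hfr⟩ := exists_continuous_one_zero_of_isCompact
    (isCompact_singleton (x := mk (1 : G n))) hC hdisj
  refine ⟨f, hfc, fun x => (hfr x).1, fun x hx => hf0 hx, ?_⟩
  intro m hm hinv
  have : Measure.IsOpenPosMeasure m := ⟨fun U hU hne => pos_of_isOpen m hinv hU hne⟩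
  have h1 : f (mk (1 : G n)) = 1 := hf1 rfl
  exact f.continuous.integral_pos_of_hasCompactSupport_nonneg_nonzero hfc (fun x => (hfr x).1)
    (x := mk (1 : G n)) (by rw [h1]; exact one_ne_zero)

/-- One test function for all orders of all totally real fields of degree `n` that contain a
non-integer of house at most `H`. -/
theorem uniform_test_function (n : ℕ) (hn : n ≠ 0) (H : ℝ) :
    ∃ f : C(X n, ℝ), HasCompactSupport f ∧ (∀ x, 0 ≤ f x) ∧
      (∀ m₀ : Measure (X n), IsProbabilityMeasure m₀ → IsRightInvariant m₀ →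
        0 < ∫ x, f x ∂m₀) ∧
      ∀ (K : Type) [Field K] [NumberField K], Module.finrank ℚ K = n →
        ∀ σ : Fin n → K →+* ℝ, Function.Injective σ →
        ∀ (O : Subring K) (b : Fin n → K), IsZBasis b (O : Set K) →
        ∀ α ∈ O, α ∉ Set.range (Int.cast : ℤ → K) → (∀ j, |σ j α| ≤ H) →
        ∀ μ : Measure (X n), (∀ᵐ x ∂μ, x ∈ packetSet σ O) → ∫ x, f x ∂μ = 0 := by
  classical
  obtain ⟨T, hTf, hT⟩ := finite_conjugates n H
  -- the finite set of possible conjugate vectors
  set S : Set (Fin n → ℝ) := {τ | (∀ j, τ j ∈ T) ∧ ∀ j, τ j ∉ Set.range (Int.cast : ℤ → ℝ)} with hS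
  have hSf : S.Finite := by
    refine (Set.Finite.pi' (t := fun _ => T) fun _ => hTf).subset ?_
    intro τ hτ
    exact fun j => hτ.1 j
  set C : Set (X n) := ⋃ τ ∈ S, stableX τ with hC
  have hCc : IsClosed C := hSf.isClosed_biUnion fun τ _ => isClosed_stableX τ
  have h1 : mk (1 : G n) ∉ C := by
    intro hmem
    simp only [hC, Set.mem_iUnion] at hmem
    obtain ⟨τ, hτ, hm⟩ := hmem
    exact one_not_stable τ (j := ⟨0, Nat.pos_of_ne_zero hn⟩) (hτ.2 _) hm
  obtain ⟨f, hfc, hf0, hfC, hfpos⟩ := exists_test_function_closed hCc h1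
  refine ⟨f, hfc, hf0, hfpos, ?_⟩
  intro K _ _ hK σ hσ O b hb α hα hnot hH μ hμ
  have hint := integral_of_basis hb hα
  have hτ : (fun j => σ j α) ∈ S := by
    refine ⟨hT K hK σ hσ α hint hH, fun j => ?_⟩
    rintro ⟨z, hz⟩
    apply hnot
    refine ⟨z, (σ j).injective ?_⟩
    rw [map_intCast]
    exact hz
  refine integral_eq_zero_of_ae ?_
  filter_upwards [hμ] with x hx
  refine hfC x ?_
  simp only [hC, Set.mem_iUnion]
  exact ⟨_, hτ, packetSet_subset_stableX σ O hα hx⟩

section Prime

variable {K : Type} [Field K] [NumberField K]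

/-- In prime degree a non-rational integer generates, so it separates embeddings. -/
lemma embeddings_separated (hp : (Module.finrank ℚ K).Prime) {α : K} (hint : IsIntegral ℤ α)
    (hnot : α ∉ Set.range (Int.cast : ℤ → K)) {φ ψ : K →+* ℝ} (h : φ α = ψ α) : φ = ψ := by
  have hQ : IsIntegral ℚ α := hint.tower_top
  have h1 : (minpoly ℚ α).natDegree ∣ Module.finrank ℚ K := minpoly.degree_dvd hQ
  have hmap : minpoly ℚ α = (minpoly ℤ α).map (algebraMap ℤ ℚ) :=
    minpoly.isIntegrallyClosed_eq_field_fractions' ℚ hint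
  rcases (Nat.dvd_prime hp).mp h1 with h2 | h2
  · exfalso
    rw [hmap, (minpoly.monic hint).natDegree_map] at h2
    obtain ⟨z, hz⟩ := minpoly.natDegree_eq_one_iff.mp h2
    exact hnot ⟨z, by simpa using hz⟩
  · have htop : IntermediateField.adjoin ℚ {α} = ⊤ :=
      (Field.primitive_element_iff_minpoly_natDegree_eq ℚ α).mpr h2
    have hadj : Algebra.adjoin ℚ {α} = ⊤ := by
      rw [← IntermediateField.adjoin_simple_toSubalgebra_of_isAlgebraic hQ.isAlgebraic, htop]
      rfl
    have h3 : φ.toRatAlgHom = ψ.toRatAlgHom := by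
      refine AlgHom.ext_of_adjoin_eq_top hadj ?_
      intro x hx
      rw [Set.mem_singleton_iff.mp hx]
      exact h
    ext x
    exact congrArg (fun χ : K →ₐ[ℚ] ℝ => χ x) h3

end Prime

/-- In prime degree `n`, orders with a non-integer of bounded house have bounded discriminant. -/
theorem prime_disc_bound (n : ℕ) (hp : n.Prime) (H : ℝ) : ∃ C : ℝ,
    ∀ (K : Type) [Field K] [NumberField K], Module.finrank ℚ K = n →
      ∀ σ : Fin n → K →+* ℝ, Function.Injective σ →
      ∀ (O : Subring K) (b : Fin n → K), IsZBasis b (O : Set K) →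
      ∀ α ∈ O, α ∉ Set.range (Int.cast : ℤ → K) → (∀ j, |σ j α| ≤ H) →
        (Matrix.of fun i j => σ j (b i)).det ^ 2 ≤ C := by
  classical
  set B : ℝ := max 1 H with hBdef
  have hB1 : 1 ≤ B := le_max_left _ _
  set x : ℝ := B ^ n with hx
  refine ⟨(n.factorial • x ^ n) ^ 2, ?_⟩
  intro K _ _ hK σ hσ O b hb α hα hnot hH
  have hint := integral_of_basis hb hα
  set τ : Fin n → ℝ := fun j => σ j α with hτ
  have hτinj : Function.Injective τ := by
    intro j k hjk
    apply hσ
    exact embeddings_separated (hK ▸ hp) hint hnot hjk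
  set M : Matrix (Fin n) (Fin n) ℝ := Matrix.of fun i j => σ j (b i) with hM
  -- powers of `α` in terms of the basis
  have hpow : ∀ k : Fin n, ∃ c : Fin n → ℤ, α ^ (k : ℕ) = ∑ i, (c i : K) * b i := fun k =>
    (hb.1 _).mp (O.pow_mem hα _)
  choose c hc using hpow
  set V : Matrix (Fin n) (Fin n) ℝ := (Matrix.vandermonde τ).transpose with hV
  have hVeq : V = (Matrix.of c).map (Int.castRingHom ℝ) * M := by
    ext k j
    simp only [hV, Matrix.transpose_apply, Matrix.vandermonde_apply, Matrix.mul_apply,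
      Matrix.map_apply, Matrix.of_apply, hM, hτ]
    rw [← map_pow, hc k, map_sum]
    refine Finset.sum_congr rfl fun i _ => ?_
    simp [map_mul]
  have hdetV : V.det ≠ 0 := by
    rw [hV, Matrix.det_transpose]
    exact Matrix.det_vandermonde_ne_zero_iff.mpr hτinj
  have hdet : V.det = ((Matrix.of c).det : ℝ) * M.det := by
    rw [hVeq, Matrix.det_mul]
    congr 1
    have := (Int.castRingHom ℝ).map_det (Matrix.of c)
    simpa [RingHom.mapMatrix_apply] using this.symm
  have hdetc : (Matrix.of c).det ≠ 0 := by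
    intro h0
    rw [h0] at hdet
    simp at hdet
    exact hdetV hdet
  have h1 : (1 : ℝ) ≤ ((Matrix.of c).det : ℝ) ^ 2 := by
    have : (1 : ℤ) ≤ (Matrix.of c).det ^ 2 := by
      have := sq_pos_of_ne_zero hdetc
      omega
    exact_mod_cast this
  have h2 : M.det ^ 2 ≤ V.det ^ 2 := by
    rw [hdet, mul_pow]
    have : 0 ≤ M.det ^ 2 := sq_nonneg _
    nlinarith
  have hentry : ∀ k j, AbsoluteValue.abs (V k j) ≤ x := by
    intro k j
    simp only [hV, Matrix.transpose_apply, Matrix.vandermonde_apply, AbsoluteValue.abs_apply,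
      abs_pow]
    have h3 : |τ j| ≤ B := (hH j).trans (le_max_right _ _)
    calc |τ j| ^ (k : ℕ) ≤ B ^ (k : ℕ) := pow_le_pow_left₀ (abs_nonneg _) h3 _
      _ ≤ B ^ n := pow_le_pow_right₀ hB1 k.2.le
  have h3 := Matrix.det_le (abv := AbsoluteValue.abs) hentry
  rw [Fintype.card_fin] at h3
  have h4 : V.det ^ 2 ≤ (n.factorial • x ^ n) ^ 2 := by
    rw [← sq_abs V.det]
    have h5 : |V.det| ≤ n.factorial • x ^ n := h3
    exact pow_le_pow_left₀ (abs_nonneg _) h5 2
  exact h2.trans h4

end Vale.Agent.Lib.P007
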